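import Mathlib

open Set Cardinal

namespace Vale.Agent.P068

def IsSmall {σ : Type*} (s : Set σ) : Prop :=
  ∃ (ι : Type) (f : ι → Set σ), Cardinal.mk ι < Cardinal.continuum ∧ (∀ i, (f i).Countable) ∧
    s ⊆ ⋃ i, f i

theorem IsSmall.of_countable {σ : Type*} {s : Set σ} (h : s.Countable) : IsSmall s := by
  refine ⟨Unit, fun _ => s, ?_, fun _ => h, ?_⟩
  · rw [Cardinal.mk_unit]
    exact Cardinal.one_lt_aleph0.trans Cardinal.aleph0_lt_continuum
  · intro x hx
    exact mem_iUnion.2 ⟨(), hx⟩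

theorem IsSmall.mono {σ : Type*} {s t : Set σ} (h : IsSmall t) (hst : s ⊆ t) : IsSmall s := by
  obtain ⟨ι, f, h1, h2, h3⟩ := h
  exact ⟨ι, f, h1, h2, hst.trans h3⟩

theorem IsSmall.union {σ : Type*} {s t : Set σ} (hs : IsSmall s) (ht : IsSmall t) :
    IsSmall (s ∪ t) := by
  obtain ⟨ι, f, h1, h2, h3⟩ := hs
  obtain ⟨κ, g, k1, k2, k3⟩ := ht
  refine ⟨ι ⊕ κ, Sum.elim f g, ?_, ?_, ?_⟩
  · rw [Cardinal.mk_sum]
    simpa using Cardinal.add_lt_of_lt Cardinal.aleph0_le_continuum h1 k1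
  · rintro (i | i)
    · exact h2 i
    · exact k2 i
  · rintro x (hx | hx)
    · obtain ⟨i, hi⟩ := mem_iUnion.1 (h3 hx)
      exact mem_iUnion.2 ⟨Sum.inl i, hi⟩
    · obtain ⟨i, hi⟩ := mem_iUnion.1 (k3 hx)
      exact mem_iUnion.2 ⟨Sum.inr i, hi⟩

theorem IsSmall.image {σ τ : Type*} {s : Set σ} (hs : IsSmall s) (g : σ → τ) :
    IsSmall (g '' s) := by
  obtain ⟨ι, f, h1, h2, h3⟩ := hs
  refine ⟨ι, fun i => g '' f i, h1, fun i => (h2 i).image g, ?_⟩
  rintro _ ⟨x, hx, rfl⟩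
  obtain ⟨i, hi⟩ := mem_iUnion.1 (h3 hx)
  exact mem_iUnion.2 ⟨i, mem_image_of_mem g hi⟩

theorem IsSmall.mk_lt {σ : Type} {s : Set σ} (hs : IsSmall s) :
    Cardinal.mk s < Cardinal.continuum := by
  obtain ⟨ι, f, h1, h2, h3⟩ := hs
  calc Cardinal.mk s ≤ Cardinal.mk (⋃ i, f i : Set σ) := Cardinal.mk_le_mk_of_subset h3
    _ ≤ Cardinal.sum fun i => Cardinal.mk (f i) := Cardinal.mk_iUnion_le_sum_mk
    _ ≤ Cardinal.sum fun _ : ι => Cardinal.aleph0 :=
        Cardinal.sum_le_sum _ _ fun i => (Cardinal.le_aleph0_iff_set_countable).2 (h2 i)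
    _ = Cardinal.mk ι * Cardinal.aleph0 := by rw [Cardinal.sum_const']
    _ < Cardinal.continuum :=
        Cardinal.mul_lt_of_lt Cardinal.aleph0_le_continuum h1 Cardinal.aleph0_lt_continuum

theorem transfinite_build {σ : Type*} {τ : Type} (hτ : Cardinal.mk τ ≤ Cardinal.continuum)
    (Valid : Set σ → Prop)
    (hchain : ∀ c : Set (Set σ), c.Nonempty → DirectedOn (· ⊆ ·) c → (∀ s ∈ c, Valid s) →
      Valid (⋃₀ c))
    (s0 : Set σ) (h0 : Valid s0) (hs0 : IsSmall s0)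
    (Done : τ → Set σ → Prop) (hmono : ∀ t s s', s ⊆ s' → Done t s → Done t s')
    (step : ∀ t s, Valid s → IsSmall s → s0 ⊆ s →
      ∃ s', s ⊆ s' ∧ Valid s' ∧ (s' \ s).Finite ∧ Done t s') :
    ∃ s, s0 ⊆ s ∧ Valid s ∧ ∀ t, Done t s := by
  classical
  obtain ⟨r, wo, hr⟩ := Cardinal.exists_ord_eq τ
  have hcard : ∀ i : τ, Cardinal.mk {j // r j i} < Cardinal.continuum := by
    intro i
    have h1 := Cardinal.card_typein_lt i hr
    rw [Ordinal.card_typein] at h1
    exact lt_of_lt_of_le h1 hτ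
  have hwf : WellFounded r := wo.wf
  let F : (i : τ) → ((j : τ) → r j i → Set σ) → Set σ := fun i P =>
    if h : Valid (s0 ∪ ⋃ j, ⋃ (h : r j i), P j h) ∧ IsSmall (s0 ∪ ⋃ j, ⋃ (h : r j i), P j h) then
      Classical.choose (step i _ h.1 h.2 subset_union_left)
    else s0 ∪ ⋃ j, ⋃ (h : r j i), P j h
  let P : τ → Set σ := hwf.fix F
  let Q : τ → Set σ := fun i => s0 ∪ ⋃ j, ⋃ (_ : r j i), P j
  have hP : ∀ i, P i = F i fun j _ => P j := fun i => hwf.fix_eq F i
  have key : ∀ i, Valid (Q i) → IsSmall (Q i) →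
      Q i ⊆ P i ∧ Valid (P i) ∧ (P i \ Q i).Finite ∧ Done i (P i) := by
    intro i h1 h2
    have h3 : P i = Classical.choose (step i (Q i) h1 h2 subset_union_left) := by
      rw [hP i]
      exact dif_pos (⟨h1, h2⟩ : Valid (Q i) ∧ IsSmall (Q i))
    rw [h3]
    exact Classical.choose_spec (step i (Q i) h1 h2 subset_union_left)
  have hdir : ∀ p : τ → Prop, (∀ j, p j → Valid (Q j) ∧ IsSmall (Q j)) →
      Valid (s0 ∪ ⋃ j, ⋃ (_ : p j), P j) := by
    intro p hp
    have h1 : s0 ∪ ⋃ j, ⋃ (_ : p j), P j = ⋃₀ (insert s0 (P '' {j | p j})) := by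
      ext x
      simp
    rw [h1]
    apply hchain
    · exact ⟨s0, mem_insert _ _⟩
    · have hs0P : ∀ j, p j → s0 ⊆ P j := fun j hj =>
        (subset_union_left).trans (key j (hp j hj).1 (hp j hj).2).1
      rintro a (ha | ⟨j, hj, rfl⟩) b (hb | ⟨k, hk, rfl⟩)
      · exact ⟨s0, mem_insert _ _, ha.subset, hb.subset⟩
      · exact ⟨P k, mem_insert_of_mem _ ⟨k, hk, rfl⟩, ha.subset.trans (hs0P k hk), subset_rfl⟩
      · exact ⟨P j, mem_insert_of_mem _ ⟨j, hj, rfl⟩, subset_rfl, hb.subset.trans (hs0P j hj)⟩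
      · have hlt : ∀ j k, p k → r j k → P j ⊆ P k := by
          intro j k hk hjk
          refine Subset.trans ?_ (key k (hp k hk).1 (hp k hk).2).1
          intro x hx
          exact Or.inr (mem_iUnion.2 ⟨j, mem_iUnion.2 ⟨hjk, hx⟩⟩)
        rcases trichotomous_of r j k with h | h | h
        · exact ⟨P k, mem_insert_of_mem _ ⟨k, hk, rfl⟩, hlt j k hk h, subset_rfl⟩
        · subst h
          exact ⟨P j, mem_insert_of_mem _ ⟨j, hj, rfl⟩, subset_rfl, subset_rfl⟩
        · exact ⟨P j, mem_insert_of_mem _ ⟨j, hj, rfl⟩, subset_rfl, hlt k j hj h⟩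
    · rintro a (rfl | ⟨j, hj, rfl⟩)
      · exact h0
      · exact (key j (hp j hj).1 (hp j hj).2).2.1
  have main : ∀ i, Valid (Q i) ∧ IsSmall (Q i) := by
    intro i
    induction i using hwf.induction with
    | _ i ih =>
      refine ⟨hdir (fun j => r j i) ih, ?_⟩
      refine (hs0.union (t := ⋃ j : {j // r j i}, (P j \ Q j)) ?_).mono ?_
      · exact ⟨{j // r j i}, fun j => P j \ Q j, hcard i,
          fun j => (key j (ih j j.2).1 (ih j j.2).2).2.2.1.countable, subset_rfl⟩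
      · rintro x (hx | hx)
        · exact Or.inl hx
        · by_cases hx0 : x ∈ s0
          · exact Or.inl hx0
          obtain ⟨j, hj⟩ := mem_iUnion.1 hx
          obtain ⟨hji, hxj⟩ := mem_iUnion.1 hj
          have hne : {k | x ∈ P k}.Nonempty := ⟨j, hxj⟩
          let m := hwf.min {k | x ∈ P k} hne
          have hm1 : x ∈ P m := hwf.min_mem {k | x ∈ P k} hne
          have hm2 : ∀ k, x ∈ P k → ¬ r k m := fun k hk => hwf.not_lt_min {k | x ∈ P k} hk
          have hmi : r m i := by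
            rcases trichotomous_of r m i with h | h | h
            · exact h
            · rw [h] at hm2
              exact absurd hji (hm2 j hxj)
            · exact absurd (_root_.trans hji h) (hm2 j hxj)
          refine Or.inr (mem_iUnion.2 ⟨⟨m, hmi⟩, hm1, ?_⟩)
          rintro (h | h)
          · exact hx0 h
          · obtain ⟨k, hk⟩ := mem_iUnion.1 h
            obtain ⟨hkm, hxk⟩ := mem_iUnion.1 hk
            exact hm2 k hxk hkm
  refine ⟨s0 ∪ ⋃ j, ⋃ (_ : True), P j, subset_union_left, hdir (fun _ => True) fun j _ => main j,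
    ?_⟩
  intro t
  refine hmono t (P t) _ ?_ (key t (main t).1 (main t).2).2.2.2
  intro x hx
  exact Or.inr (mem_iUnion.2 ⟨t, mem_iUnion.2 ⟨trivial, hx⟩⟩)

end Vale.Agent.P068
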