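import Mathlib

open Set Matroid

namespace Vale.Agent.P068

def SatisfiesIntersection {α : Type*} (M N : Matroid α) : Prop :=
  ∃ JM JN : Set α, Disjoint JM JN ∧ M.Indep (JM ∪ JN) ∧ N.Indep (JM ∪ JN) ∧
    M.closure JM ∪ N.closure JN = M.E

def HasPackingCovering {α ι : Type*} (E : Set α) (M : ι → Matroid α) : Prop :=
  ∃ (P C : Set α) (S I : ι → Set α), Disjoint P C ∧ P ∪ C = E ∧
    (∀ i, S i ⊆ P) ∧ (∀ i, I i ⊆ C) ∧ (∀ i j, i ≠ j → Disjoint (S i) (S j)) ∧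
    (∀ i, (M i ↾ P).closure (S i) = P) ∧ (∀ i, ((M i)✶ ↾ C)✶.Indep (I i)) ∧ ⋃ i, I i = C

def IntersectionConjecture : Prop :=
  ∀ (α : Type) (M N : Matroid α), M.E = N.E → SatisfiesIntersection M N

def PackingCoveringConjecture : Prop :=
  ∀ (α ι : Type) (E : Set α) (M : ι → Matroid α), (∀ i, (M i).E = E) → HasPackingCovering E M

def IsUniform {α : Type*} (M : Matroid α) : Prop :=
  ∀ X ⊆ M.E, M.Indep X ∨ M.Spanning X

def IsCountableSumOfUniform {α : Type*} (M : Matroid α) : Prop :=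
  ∃ (ι : Type) (_ : Countable ι) (K : ι → Set α), (∀ i j, i ≠ j → Disjoint (K i) (K j)) ∧
    ⋃ i, K i = M.E ∧ (∀ I ⊆ M.E, (∀ i, M.Indep (I ∩ K i)) → M.Indep I) ∧
    ∀ i, IsUniform (M ↾ K i)

def SmallSplit : Prop :=
  ∀ 𝒵 : Set (Set ℕ), Cardinal.mk 𝒵 < Cardinal.continuum → (∀ Z ∈ 𝒵, Z.Infinite) →
    ∃ G : Set ℕ, ∀ Z ∈ 𝒵, (Z ∩ G).Infinite ∧ (Z \ G).Infinite

end Vale.Agent.P068
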