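import Mathlib
import Vale.Agent.P068.Defs

open Set

namespace Vale.Agent.P068

lemma exists_split_seq (Z : ℕ → Set ℕ) (hZ : ∀ n, (Z n).Infinite) :
    ∃ G : Set ℕ, ∀ n, (Z n ∩ G).Infinite ∧ (Z n \ G).Infinite := by
  have hstep : ∀ n k : ℕ, ∃ m, m ∈ Z k ∧ n < m := fun n k => (hZ k).exists_gt n
  choose s hs1 hs2 using hstep
  let g : ℕ → ℕ := fun m => (Nat.unpair (m / 2)).1
  obtain ⟨f, hmem, hmono⟩ : ∃ f : ℕ → ℕ, (∀ m, f m ∈ Z (g m)) ∧ StrictMono f := by
    refine ⟨fun m => Nat.rec (s 0 (g 0)) (fun m v => s v (g (m + 1))) m, ?_, ?_⟩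
    · intro m
      cases m with
      | zero => exact hs1 _ _
      | succ m => exact hs1 _ _
    · exact strictMono_nat_of_lt_succ fun m => hs2 _ _
  refine ⟨f '' {m | Even m}, fun n => ⟨?_, ?_⟩⟩
  · have hinj : Function.Injective (fun j : ℕ => f (2 * Nat.pair n j)) := by
      intro i j hij
      have h1 := hmono.injective (by simpa using hij)
      have h2 : Nat.pair n i = Nat.pair n j := by omega
      exact (Nat.pair_eq_pair.mp h2).2
    refine (infinite_range_of_injective hinj).mono ?_
    rintro _ ⟨j, rfl⟩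
    refine ⟨?_, ⟨2 * Nat.pair n j, even_two_mul _, rfl⟩⟩
    have h1 : g (2 * Nat.pair n j) = n := by
      have : 2 * Nat.pair n j / 2 = Nat.pair n j := by omega
      simp only [g, this, Nat.unpair_pair]
    have h2 := hmem (2 * Nat.pair n j)
    rwa [h1] at h2
  · have hinj : Function.Injective (fun j : ℕ => f (2 * Nat.pair n j + 1)) := by
      intro i j hij
      have h1 := hmono.injective (by simpa using hij)
      have h2 : Nat.pair n i = Nat.pair n j := by omega
      exact (Nat.pair_eq_pair.mp h2).2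
    refine (infinite_range_of_injective hinj).mono ?_
    rintro _ ⟨j, rfl⟩
    refine ⟨?_, ?_⟩
    · have h1 : g (2 * Nat.pair n j + 1) = n := by
        have : (2 * Nat.pair n j + 1) / 2 = Nat.pair n j := by omega
        simp only [g, this, Nat.unpair_pair]
      have h2 := hmem (2 * Nat.pair n j + 1)
      rwa [h1] at h2
    · rintro ⟨m, hm, hmf⟩
      have hmf' : f m = f (2 * Nat.pair n j + 1) := hmf
      have h1 := hmono.injective hmf'
      rw [h1] at hm
      simp at hm

theorem smallSplit_of_ch (h : Cardinal.continuum.{0} = Cardinal.aleph 1) : SmallSplit := by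
  intro 𝒵 hcard hinf
  have hcount : 𝒵.Countable := by
    rw [h] at hcard
    rw [← Cardinal.le_aleph0_iff_set_countable]
    have h1 : Cardinal.aleph 1 = Order.succ Cardinal.aleph0 := Cardinal.succ_aleph0.symm
    rw [h1] at hcard
    exact Order.lt_succ_iff.mp hcard
  rcases 𝒵.eq_empty_or_nonempty with rfl | hne
  · exact ⟨∅, fun Z hZ => absurd hZ (notMem_empty Z)⟩
  · obtain ⟨Z, rfl⟩ := hcount.exists_eq_range hne
    obtain ⟨G, hG⟩ := exists_split_seq Z (fun n => hinf _ ⟨n, rfl⟩)
    refine ⟨G, ?_⟩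
    rintro _ ⟨n, rfl⟩
    exact hG n

end Vale.Agent.P068
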