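import Mathlib
import Vale.Agent.P068.Defs

open Set Matroid

namespace Vale.Agent.P068

theorem exists_glue {ι : Type} [Countable ι] {β V : Type*} (C : ι → Matroid β)
    (hE : ∀ i, (C i).E = univ)
    (φ : ι → β → V) (hφ : Function.Bijective (fun x : (_ : ι) × β => φ x.1 x.2))
    (hsw : ∀ i I x, (C i).Indep I → ¬ (C i).IsBase I → (C i).Indep (insert x I)) :
    ∃ M : Matroid V, M.E = univ ∧ (∀ J, M.Indep J ↔ ∀ i, (C i).Indep (φ i ⁻¹' J)) ∧
      (∀ J, M.Indep J → ∀ i, ¬ (C i).IsBase (φ i ⁻¹' J) → ∀ x, φ i x ∈ M.closure J →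
        φ i x ∈ J) ∧ IsCountableSumOfUniform M := by
  let f : ((_ : ι) × β) ≃ V := Equiv.ofBijective _ hφ
  have hf : ∀ i x, f ⟨i, x⟩ = φ i x := fun i x => rfl
  have hind : ∀ J, ((Matroid.sigma C).mapEquiv f).Indep J ↔ ∀ i, (C i).Indep (φ i ⁻¹' J) := by
    intro J
    rw [Matroid.mapEquiv_indep_iff, Matroid.sigma_indep_iff]
    have : ∀ i, ((Sigma.mk (β := fun _ : ι => β) i) ⁻¹' (f.symm '' J) : Set β) = φ i ⁻¹' J := by
      intro i
      ext x
      rw [Equiv.image_symm_eq_preimage]
      rfl
    exact forall_congr' fun i => by rw [← this i]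
  have hEu : ((Matroid.sigma C).mapEquiv f).E = univ := by
    rw [Matroid.mapEquiv_ground_eq, Matroid.sigma_ground_eq]
    simp [hE]
  have hcl : (∀ J, ((Matroid.sigma C).mapEquiv f).Indep J → ∀ i, ¬ (C i).IsBase (φ i ⁻¹' J) →
      ∀ x, φ i x ∈ ((Matroid.sigma C).mapEquiv f).closure J → φ i x ∈ J) := ?_
  · refine ⟨(Matroid.sigma C).mapEquiv f, hEu, hind, hcl, ?_⟩
    generalize (Matroid.sigma C).mapEquiv f = M at *
    refine ⟨ι, inferInstance, fun i => range (φ i), ?_, ?_, ?_, ?_⟩
    · intro i j hij
      rw [disjoint_left]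
      rintro _ ⟨x, rfl⟩ ⟨y, hy⟩
      have := f.injective (a₁ := ⟨j, y⟩) (a₂ := ⟨i, x⟩) hy
      simp only [Sigma.mk.injEq] at this
      exact hij this.1.symm
    · rw [hEu, eq_univ_iff_forall]
      intro v
      obtain ⟨⟨i, x⟩, hx⟩ := hφ.2 v
      exact mem_iUnion.2 ⟨i, x, hx⟩
    · intro I _ hI
      rw [hind]
      intro i
      have := (hind _).1 (hI i) i
      rwa [preimage_inter, preimage_range, inter_univ] at this
    · intro i X hX
      have hX : X ⊆ range (φ i) := hX
      have hXE : X ⊆ M.E := by
        rw [hEu]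
        exact subset_univ _
      by_cases hXi : M.Indep X
      · exact Or.inl (by rw [restrict_indep_iff]; exact ⟨hXi, hX⟩)
      right
      obtain ⟨B, hB⟩ := M.exists_isBasis X hXE
      obtain ⟨v, hvX, hvB⟩ : ∃ v ∈ X, v ∉ B := by
        by_contra h
        push Not at h
        exact hXi ((hB.subset.antisymm h) ▸ hB.indep)
      have hbase : (C i).IsBase (φ i ⁻¹' B) := by
        by_contra hnb
        obtain ⟨x, rfl⟩ := hX hvX
        exact hvB (hcl B hB.indep i hnb x (hB.subset_closure hvX))
      have hsp : range (φ i) ⊆ M.closure X := by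
        rw [← hB.closure_eq_closure]
        rintro _ ⟨x, rfl⟩
        by_cases hxB : φ i x ∈ B
        · exact M.mem_closure_of_mem hxB (hB.indep.subset_ground)
        rw [hB.indep.mem_closure_iff]
        left
        refine ⟨fun h => ?_, by rw [hEu]; exact subset_univ _⟩
        have h1 := (hind _).1 h i
        have h2 := hbase.eq_of_subset_indep h1 (preimage_mono (subset_insert _ _))
        have h3 : x ∈ φ i ⁻¹' B := by
          rw [h2]
          exact mem_insert _ _
        exact hxB h3
      rw [spanning_iff_closure_eq (by simpa using hX)]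
      rw [restrict_closure_eq _ hX (by rw [hEu]; exact subset_univ _)]
      exact inter_eq_right.2 hsp
  intro J hJ i hB x hx
  by_contra hxJ
  rw [hJ.mem_closure_iff] at hx
  rcases hx with hx | hx
  · apply hx.not_indep
    rw [hind]
    intro k
    by_cases hk : k = i
    · subst hk
      have : φ k ⁻¹' (insert (φ k x) J) = insert x (φ k ⁻¹' J) := by
        ext y
        simp only [mem_preimage, mem_insert_iff]
        constructor
        · rintro (h | h)
          · have := f.injective (a₁ := ⟨k, y⟩) (a₂ := ⟨k, x⟩) h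
            simp only [Sigma.mk.injEq, heq_eq_eq, true_and] at this
            exact Or.inl this
          · exact Or.inr h
        · rintro (h | h)
          · exact Or.inl (by rw [h])
          · exact Or.inr h
      rw [this]
      exact hsw k _ _ ((hind J).1 hJ k) hB
    · have : φ k ⁻¹' (insert (φ i x) J) = φ k ⁻¹' J := by
        ext y
        simp only [mem_preimage, mem_insert_iff]
        constructor
        · rintro (h | h)
          · have := f.injective (a₁ := ⟨k, y⟩) (a₂ := ⟨i, x⟩) h
            simp only [Sigma.mk.injEq] at this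
            exact absurd this.1 hk
          · exact h
        · exact Or.inr
      rw [this]
      exact (hind J).1 hJ k
  · exact hxJ hx

end Vale.Agent.P068
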