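import Mathlib
import Vale.Agent.P068.Defs
import Vale.Agent.P068.Glue

open Set

namespace Vale.Agent.P068

theorem dual_swap {β : Type*} (U : Matroid β) (hUE : U.E = univ)
    (hswap : ∀ S x y, U.IsBase S → x ∈ S → y ∉ S → U.IsBase (insert y (S \ {x}))) :
    ∀ S x y, U.dual.IsBase S → x ∈ S → y ∉ S → U.dual.IsBase (insert y (S \ {x})) := by
  intro S x y hS hx hy
  rw [Matroid.dual_isBase_iff'] at hS ⊢
  rw [hUE] at hS ⊢
  refine ⟨?_, subset_univ _⟩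
  have h1 := hswap (univ \ S) y x hS.1 ⟨trivial, hy⟩ (fun h => h.2 hx)
  have h2 : insert x ((univ \ S) \ {y}) = univ \ insert y (S \ {x}) := by
    ext z
    simp only [mem_insert_iff, mem_sdiff, mem_univ, true_and, mem_singleton_iff, not_or, not_and,
      not_not]
    constructor
    · rintro (h | h)
      · subst h
        exact ⟨fun h => hy (h ▸ hx), fun _ => rfl⟩
      · exact ⟨h.2, fun h' => absurd h' h.1⟩
    · rintro ⟨h3, h4⟩
      by_cases hz : z ∈ S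
      · exact Or.inl (h4 hz)
      · exact Or.inr ⟨hz, h3⟩
  rwa [h2] at h1

theorem insert_indep_of_swap {β : Type*} (C : Matroid β)
    (hswap : ∀ S x y, C.IsBase S → x ∈ S → y ∉ S → C.IsBase (insert y (S \ {x}))) :
    ∀ I x, C.Indep I → ¬ C.IsBase I → C.Indep (insert x I) := by
  intro I x hI hnb
  obtain ⟨B, hB, hIB⟩ := hI.exists_isBase_superset
  by_cases hx : x ∈ B
  · exact hB.indep.subset (insert_subset hx hIB)
  have : ∃ y ∈ B, y ∉ I := by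
    by_contra h
    push Not at h
    exact hnb ((hIB.antisymm h) ▸ hB)
  obtain ⟨y, hy, hyI⟩ := this
  refine (hswap B y x hB hy hx).indep.subset (insert_subset_insert ?_)
  intro z hz
  exact ⟨hIB hz, fun h => hyI (h ▸ hz)⟩

structure Sys {L : Type*} [LinearOrder L] [BoundedOrder L] (Low : L → Prop) (ρ : Set ℕ → L)
    (U : Matroid (ℕ ⊕ ℕ)) : Prop where
  hLow : ∀ x y, x ≤ y → Low y → Low x
  hbotL : Low ⊥
  htopL : ¬ Low ⊤
  hwf1 : ∀ f : ℕ → L, (∀ n, Low (f n)) → ¬ ∀ n, f (n + 1) < f n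
  hwf2 : ∀ f : ℕ → L, (∀ n, ¬ Low (f n)) → ¬ ∀ n, f n < f (n + 1)
  hmono : ∀ A B, A ⊆ B → ρ A ≤ ρ B
  hbot : ρ ∅ = ⊥
  htop : ρ univ = ⊤
  hUE : U.E = univ
  hswap : ∀ S x y, U.IsBase S → x ∈ S → y ∉ S → U.IsBase (insert y (S \ {x}))
  hfree : ∀ S, U.IsBase S →
      (Low (ρ (Sum.inl ⁻¹' S)ᶜ) → ρ (Sum.inr ⁻¹' S) < ρ (Sum.inl ⁻¹' S)ᶜ) ∧
      (¬ Low (ρ (Sum.inl ⁻¹' S)ᶜ) → ρ (Sum.inl ⁻¹' S)ᶜ < ρ (Sum.inr ⁻¹' S))

namespace Sys

variable {L : Type*} [LinearOrder L] [BoundedOrder L] {Low : L → Prop} {ρ : Set ℕ → L}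
  {U : Matroid (ℕ ⊕ ℕ)}

theorem q1 (h0 : Sys Low ρ U) {I : Set (ℕ ⊕ ℕ)} (hI : U.Indep I) (h : Low (ρ (Sum.inl ⁻¹' I)ᶜ)) :
    ρ (Sum.inr ⁻¹' I) < ρ (Sum.inl ⁻¹' I)ᶜ := by
  obtain ⟨B, hB, hIB⟩ := hI.exists_isBase_superset
  have h1 : ρ (Sum.inl ⁻¹' B)ᶜ ≤ ρ (Sum.inl ⁻¹' I)ᶜ :=
    h0.hmono _ _ (compl_subset_compl.2 (preimage_mono hIB))
  have h2 : ρ (Sum.inr ⁻¹' I) ≤ ρ (Sum.inr ⁻¹' B) := h0.hmono _ _ (preimage_mono hIB)
  exact (h2.trans_lt ((h0.hfree B hB).1 (h0.hLow _ _ h1 h))).trans_le h1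

theorem q0d (h0 : Sys Low ρ U) {B : Set (ℕ ⊕ ℕ)} (hB : U.dual.IsBase B) :
    (Low (ρ (Sum.inl ⁻¹' B)) → ρ (Sum.inr ⁻¹' B)ᶜ < ρ (Sum.inl ⁻¹' B)) ∧
    (¬ Low (ρ (Sum.inl ⁻¹' B)) → ρ (Sum.inl ⁻¹' B) < ρ (Sum.inr ⁻¹' B)ᶜ) := by
  rw [Matroid.dual_isBase_iff', h0.hUE] at hB
  have h := h0.hfree _ hB.1
  have h1 : (Sum.inl ⁻¹' (univ \ B))ᶜ = (Sum.inl ⁻¹' B : Set ℕ) := by
    ext x
    simp
  have h2 : (Sum.inr ⁻¹' (univ \ B) : Set ℕ) = (Sum.inr ⁻¹' B)ᶜ := by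
    ext x
    simp
  rwa [h1, h2] at h

theorem q2d (h0 : Sys Low ρ U) {I : Set (ℕ ⊕ ℕ)} (hI : U.dual.Indep I)
    (h : ¬ Low (ρ (Sum.inl ⁻¹' I))) : ρ (Sum.inl ⁻¹' I) < ρ (Sum.inr ⁻¹' I)ᶜ := by
  obtain ⟨B, hB, hIB⟩ := hI.exists_isBase_superset
  have h1 : ρ (Sum.inl ⁻¹' I) ≤ ρ (Sum.inl ⁻¹' B) := h0.hmono _ _ (preimage_mono hIB)
  have h2 : ρ (Sum.inr ⁻¹' B)ᶜ ≤ ρ (Sum.inr ⁻¹' I)ᶜ :=
    h0.hmono _ _ (compl_subset_compl.2 (preimage_mono hIB))
  exact (h1.trans_lt ((h0.q0d hB).2 (fun h3 => h (h0.hLow _ _ h1 h3)))).trans_le h2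

theorem loc1 (h0 : Sys Low ρ U) {I : Set (ℕ ⊕ ℕ)} (hI : U.Indep I ∨ U.dual.Indep I)
    (h : Sum.inl ⁻¹' I = univ) : False := by
  rcases hI with hI | hI
  · have h1 := h0.q1 hI
    rw [h, compl_univ, h0.hbot] at h1
    exact absurd (h1 h0.hbotL) not_lt_bot
  · have h1 := h0.q2d hI
    rw [h, h0.htop] at h1
    exact absurd (h1 h0.htopL) not_top_lt

theorem loc2 (h0 : Sys Low ρ U) {I : Set (ℕ ⊕ ℕ)} (hI : U.IsBase I ∨ U.dual.IsBase I)
    (h : Sum.inl ⁻¹' I = ∅) : False := by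
  rcases hI with hI | hI
  · have h1 := (h0.hfree _ hI).2
    rw [h, compl_empty, h0.htop] at h1
    exact absurd (h1 h0.htopL) not_top_lt
  · have h1 := (h0.q0d hI).1
    rw [h, h0.hbot] at h1
    exact absurd (h1 h0.hbotL) not_lt_bot

theorem half_low (h0 : Sys Low ρ U) (J : ℕ → Set ℕ) (I : ℕ → Set (ℕ ⊕ ℕ))
    (hl : ∀ j, Sum.inl ⁻¹' (I j) = J j) (hr : ∀ j, Sum.inr ⁻¹' (I j) = J (j + 1))
    (h1 : ∀ j, Even j → U.dual.IsBase (I j)) (h2 : ∀ j, ¬ Even j → U.Indep (I j)) :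
    ¬ Low (ρ (J 0)) := by
  intro hlow
  let x : ℕ → L := fun j => if Even j then ρ (J j) else ρ (J j)ᶜ
  have hstep : ∀ j, Low (x j) → x (j + 1) < x j := by
    intro j hj
    by_cases he : Even j
    · have he' : ¬ Even (j + 1) := by
        rw [Nat.even_add_one]
        simpa using he
      have e1 : x j = ρ (J j) := if_pos he
      have e2 : x (j + 1) = ρ (J (j + 1))ᶜ := if_neg he'
      rw [e1, e2]
      have := (h0.q0d (h1 j he)).1
      rw [hl, hr] at this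
      rw [e1] at hj
      exact this hj
    · have he' : Even (j + 1) := by
        rw [Nat.even_add_one]
        exact he
      have e1 : x j = ρ (J j)ᶜ := if_neg he
      have e2 : x (j + 1) = ρ (J (j + 1)) := if_pos he'
      rw [e1, e2]
      have := h0.q1 (h2 j he)
      rw [hl, hr] at this
      rw [e1] at hj
      exact this hj
  have hall : ∀ j, Low (x j) := by
    intro j
    induction j with
    | zero => exact hlow
    | succ j ih => exact h0.hLow _ _ (hstep j ih).le ih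
  exact h0.hwf1 x hall fun n => hstep n (hall n)

theorem half_high (h0 : Sys Low ρ U) (J : ℕ → Set ℕ) (I : ℕ → Set (ℕ ⊕ ℕ))
    (hl : ∀ j, Sum.inl ⁻¹' (I j) = J j) (hr : ∀ j, Sum.inr ⁻¹' (I j) = J (j + 1))
    (h1 : ∀ j, Even j → U.dual.Indep (I j)) (h2 : ∀ j, ¬ Even j → U.IsBase (I j)) :
    Low (ρ (J 0)) := by
  by_contra hlow
  let x : ℕ → L := fun j => if Even j then ρ (J j) else ρ (J j)ᶜ
  have hstep : ∀ j, ¬ Low (x j) → x j < x (j + 1) := by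
    intro j hj
    by_cases he : Even j
    · have he' : ¬ Even (j + 1) := by
        rw [Nat.even_add_one]
        simpa using he
      have e1 : x j = ρ (J j) := if_pos he
      have e2 : x (j + 1) = ρ (J (j + 1))ᶜ := if_neg he'
      rw [e1, e2]
      have := h0.q2d (h1 j he)
      rw [hl, hr] at this
      rw [e1] at hj
      exact this hj
    · have he' : Even (j + 1) := by
        rw [Nat.even_add_one]
        exact he
      have e1 : x j = ρ (J j)ᶜ := if_neg he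
      have e2 : x (j + 1) = ρ (J (j + 1)) := if_pos he'
      rw [e1, e2]
      have := (h0.hfree _ (h2 j he)).2
      rw [hl, hr] at this
      rw [e1] at hj
      exact this hj
  have hall : ∀ j, ¬ Low (x j) := by
    intro j
    induction j with
    | zero => exact hlow
    | succ j ih => exact fun h => ih (h0.hLow _ _ (hstep j ih).le h)
  exact h0.hwf2 x hall fun n => hstep n (hall n)

end Sys

end Vale.Agent.P068
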