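import Mathlib

open Set

namespace Vale.Agent.P068

abbrev Col : Type 1 := Ordinal.{0} ⊕ₗ Ordinal.{0}ᵒᵈ

def lo (a : Ordinal.{0}) : Col := toLex (Sum.inl a)

def hi (a : Ordinal.{0}) : Col := toLex (Sum.inr (OrderDual.toDual a))

def Low (x : Col) : Prop := ∃ a, x = lo a

theorem low_or_high (x : Col) : Low x ∨ ∃ a, x = hi a := by
  rcases hx : ofLex x with a | a
  · exact Or.inl ⟨a, hx⟩
  · exact Or.inr ⟨OrderDual.ofDual a, hx⟩

theorem lo_le_lo {a b : Ordinal.{0}} : lo a ≤ lo b ↔ a ≤ b := Sum.Lex.inl_le_inl_iff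

theorem lo_lt_lo {a b : Ordinal.{0}} : lo a < lo b ↔ a < b := Sum.Lex.inl_lt_inl_iff

theorem hi_le_hi {a b : Ordinal.{0}} : hi a ≤ hi b ↔ b ≤ a := Sum.Lex.inr_le_inr_iff

theorem hi_lt_hi {a b : Ordinal.{0}} : hi a < hi b ↔ b < a := Sum.Lex.inr_lt_inr_iff

theorem lo_lt_hi (a b : Ordinal.{0}) : lo a < hi b := Sum.Lex.inl_lt_inr _ _

theorem not_low_hi (a : Ordinal.{0}) : ¬ Low (hi a) := by
  rintro ⟨b, hb⟩
  exact (lo_lt_hi b a).ne' hb

theorem low_lo (a : Ordinal.{0}) : Low (lo a) := ⟨a, rfl⟩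

theorem low_of_le {x y : Col} (h : x ≤ y) (hy : Low y) : Low x := by
  obtain ⟨a, rfl⟩ := hy
  rcases low_or_high x with hx | ⟨b, rfl⟩
  · exact hx
  · exact absurd h (not_le.2 (lo_lt_hi a b))

theorem lt_of_low_of_not_low {x y : Col} (hx : Low x) (hy : ¬ Low y) : x < y := by
  by_contra h
  exact hy (low_of_le (not_lt.1 h) hx)

theorem low_bot : Low ⊥ := ⟨⊥, rfl⟩

theorem not_low_top : ¬ Low ⊤ := not_low_hi 0

theorem exists_hi_of_not_low {x : Col} (hx : ¬ Low x) : ∃ a, x = hi a :=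
  (low_or_high x).resolve_left hx

theorem no_descent (f : ℕ → Col) (hf : ∀ n, Low (f n)) : ¬ ∀ n, f (n + 1) < f n := by
  intro h
  choose g hg using hf
  have h2 : ∀ n, g (n + 1) < g n := by
    intro n
    have := h n
    rwa [hg (n + 1), hg n, lo_lt_lo] at this
  exact (wellFounded_iff_isEmpty_descending_chain.1
    (wellFounded_lt (α := Ordinal.{0}))).false ⟨g, h2⟩

theorem no_ascent (f : ℕ → Col) (hf : ∀ n, ¬ Low (f n)) : ¬ ∀ n, f n < f (n + 1) := by
  intro h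
  choose g hg using fun n => exists_hi_of_not_low (hf n)
  have h2 : ∀ n, g (n + 1) < g n := by
    intro n
    have := h n
    rwa [hg (n + 1), hg n, hi_lt_hi] at this
  exact (wellFounded_iff_isEmpty_descending_chain.1
    (wellFounded_lt (α := Ordinal.{0}))).false ⟨g, h2⟩

theorem exists_low_gt {b c : Col} (hb : Low b) (hc : Low c) : ∃ x, Low x ∧ b ≤ x ∧ c < x := by
  obtain ⟨β, rfl⟩ := hb
  obtain ⟨γ, rfl⟩ := hc
  refine ⟨lo (Order.succ (max β γ)), low_lo _, ?_, ?_⟩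
  · exact lo_le_lo.2 ((le_max_left _ _).trans (Order.le_succ _))
  · exact lo_lt_lo.2 ((le_max_right _ _).trans_lt (Order.lt_succ _))

theorem exists_high_lt {a c : Col} (ha : ¬ Low a) (hc : ¬ Low c) :
    ∃ x, ¬ Low x ∧ x ≤ a ∧ x < c := by
  obtain ⟨α, rfl⟩ := exists_hi_of_not_low ha
  obtain ⟨γ, rfl⟩ := exists_hi_of_not_low hc
  refine ⟨hi (Order.succ (max α γ)), not_low_hi _, ?_, ?_⟩
  · exact hi_le_hi.2 ((le_max_left _ _).trans (Order.le_succ _))
  · exact hi_lt_hi.2 ((le_max_right _ _).trans_lt (Order.lt_succ _))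

theorem exists_lub {β : Type} (S : Set β) (g : β → Col) : ∃ x, IsLUB (g '' S) x := by
  classical
  by_cases h : ∃ s ∈ S, ¬ Low (g s)
  · have hne : {a : Ordinal.{0} | ∃ s ∈ S, g s = hi a}.Nonempty := by
      obtain ⟨s, hs, hs2⟩ := h
      obtain ⟨a, ha⟩ := exists_hi_of_not_low hs2
      exact ⟨a, s, hs, ha⟩
    obtain ⟨s, hs, hs2⟩ := csInf_mem hne
    refine ⟨g s, ?_, fun x hx => hx (mem_image_of_mem g hs)⟩
    rintro _ ⟨t, ht, rfl⟩
    rw [hs2]
    rcases low_or_high (g t) with ⟨b, hb⟩ | ⟨b, hb⟩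
    · rw [hb]
      exact (lo_lt_hi _ _).le
    · rw [hb, hi_le_hi]
      exact csInf_le' ⟨t, ht, hb⟩
  · push Not at h
    have : ∀ s : S, ∃ a, g s = lo a := fun s => h s s.2
    choose f hf using this
    have hbdd : BddAbove (range f) := Ordinal.bddAbove_of_small
    refine ⟨lo (sSup (range f)), ?_, ?_⟩
    · rintro _ ⟨t, ht, rfl⟩
      rw [hf ⟨t, ht⟩]
      exact lo_le_lo.2 (le_csSup hbdd (mem_range_self _))
    · intro x hx
      rcases low_or_high x with ⟨b, rfl⟩ | ⟨b, rfl⟩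
      · rw [lo_le_lo]
        apply csSup_le'
        rintro _ ⟨t, rfl⟩
        have := hx (mem_image_of_mem g t.2)
        rwa [hf t, lo_le_lo] at this
      · exact (lo_lt_hi _ _).le

end Vale.Agent.P068
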