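import Mathlib
import Vale.Agent.P068.Defs
import Vale.Agent.P068.Build
import Vale.Agent.P068.Color

open Set

namespace Vale.Agent.P068

theorem fin_trans {A B C : Set ℕ} (h1 : (A \ B).Finite) (h2 : (B \ C).Finite) :
    (A \ C).Finite := by
  refine (h1.union h2).subset ?_
  intro x hx
  by_cases hB : x ∈ B
  · exact Or.inr ⟨hB, hx.2⟩
  · exact Or.inl ⟨hx.1, hB⟩

abbrev Elt : Type 1 := (Set ℕ × Col) ⊕ (Set ℕ × Set ℕ)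

def Free (x y : Col) : Prop := (Low x ∧ y < x) ∨ (¬ Low x ∧ x < y)

structure Valid (s : Set Elt) : Prop where
  mono : ∀ A x A' x', Sum.inl (A, x) ∈ s → Sum.inl (A', x') ∈ s → (A \ A').Finite → x ≤ x'
  free : ∀ F Y, Sum.inr (F, Y) ∈ s →
    ∃ x y, Sum.inl (F, x) ∈ s ∧ Sum.inl (Y, y) ∈ s ∧ Free x y
  anti : ∀ F Y F' Y', Sum.inr (F, Y) ∈ s → Sum.inr (F', Y') ∈ s → (F' \ F).Finite →
    (Y \ Y').Finite → F = F' ∧ Y = Y'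

theorem valid_sUnion (c : Set (Set Elt)) (hdir : DirectedOn (· ⊆ ·) c)
    (hv : ∀ s ∈ c, Valid s) : Valid (⋃₀ c) := by
  have h2 : ∀ p q : Elt, p ∈ ⋃₀ c → q ∈ ⋃₀ c → ∃ s ∈ c, p ∈ s ∧ q ∈ s := by
    rintro p q ⟨s, hs, hp⟩ ⟨t, ht, hq⟩
    obtain ⟨u, hu, h1, h2⟩ := hdir s hs t ht
    exact ⟨u, hu, h1 hp, h2 hq⟩
  refine ⟨?_, ?_, ?_⟩
  · intro A x A' x' h h'
    obtain ⟨s, hs, hp, hq⟩ := h2 _ _ h h'
    exact (hv s hs).mono A x A' x' hp hq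
  · rintro F Y ⟨s, hs, hp⟩
    obtain ⟨x, y, hx, hy, hxy⟩ := (hv s hs).free F Y hp
    exact ⟨x, y, ⟨s, hs, hx⟩, ⟨s, hs, hy⟩, hxy⟩
  · intro F Y F' Y' h h'
    obtain ⟨s, hs, hp, hq⟩ := h2 _ _ h h'
    exact (hv s hs).anti F Y F' Y' hp hq

theorem tag_step (s : Set Elt) (hv : Valid s) (A : Set ℕ) :
    ∃ s', s ⊆ s' ∧ Valid s' ∧ (s' \ s).Finite ∧ ∃ x, Sum.inl (A, x) ∈ s' := by
  classical
  by_cases hA : ∃ x, (Sum.inl (A, x) : Elt) ∈ s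
  · refine ⟨s, subset_rfl, hv, ?_, hA⟩
    rw [sdiff_self]
    exact finite_empty
  let g : Set ℕ → Col := fun W =>
    if h : ∃ w, (Sum.inl (W, w) : Elt) ∈ s then Classical.choose h else ⊥
  have hg : ∀ W w, (Sum.inl (W, w) : Elt) ∈ s → g W = w := by
    intro W w hw
    have h : ∃ w, (Sum.inl (W, w) : Elt) ∈ s := ⟨w, hw⟩
    have h1 : g W = Classical.choose h := dif_pos h
    have h2 : (Sum.inl (W, g W) : Elt) ∈ s := by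
      rw [h1]
      exact Classical.choose_spec h
    have h3 : (W \ W).Finite := by
      rw [sdiff_self]
      exact finite_empty
    exact le_antisymm (hv.mono _ _ _ _ h2 hw h3) (hv.mono _ _ _ _ hw h2 h3)
  obtain ⟨x, hx⟩ := exists_lub {W : Set ℕ | (∃ w, (Sum.inl (W, w) : Elt) ∈ s) ∧ (W \ A).Finite} g
  refine ⟨insert (Sum.inl (A, x)) s, subset_insert _ _, ⟨?_, ?_, ?_⟩, ?_, x, mem_insert _ _⟩
  · intro B b B' b' h h' hfin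
    rcases h with h | h
    · obtain ⟨rfl, rfl⟩ : B = A ∧ b = x := by simpa using h
      rcases h' with h' | h'
      · obtain ⟨rfl, rfl⟩ : B' = B ∧ b' = b := by simpa using h'
        exact le_rfl
      · apply hx.2
        rintro _ ⟨W, ⟨⟨w, hw⟩, hWA⟩, rfl⟩
        rw [hg W w hw]
        exact hv.mono _ _ _ _ hw h' (fin_trans hWA hfin)
    · rcases h' with h' | h'
      · obtain ⟨rfl, rfl⟩ : B' = A ∧ b' = x := by simpa using h'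
        rw [← hg B b h]
        exact hx.1 (mem_image_of_mem g ⟨⟨b, h⟩, hfin⟩)
      · exact hv.mono _ _ _ _ h h' hfin
  · intro F Y h
    have h : (Sum.inr (F, Y) : Elt) ∈ s := by simpa using h
    obtain ⟨u, v, hu, hv, huv⟩ := hv.free F Y h
    exact ⟨u, v, Or.inr hu, Or.inr hv, huv⟩
  · intro F Y F' Y' h h'
    have h : (Sum.inr (F, Y) : Elt) ∈ s := by simpa using h
    have h' : (Sum.inr (F', Y') : Elt) ∈ s := by simpa using h'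
    exact hv.anti _ _ _ _ h h'
  · refine (finite_singleton (Sum.inl (A, x) : Elt)).subset ?_
    intro y hy
    rcases hy.1 with h | h
    · exact h
    · exact absurd h hy.2

theorem split_small (hs : SmallSplit) (𝒵 : Set (Set ℕ)) (h : IsSmall 𝒵) :
    ∃ G : Set ℕ, ∀ Z ∈ 𝒵, Z.Infinite → (Z ∩ G).Infinite ∧ (Z \ G).Infinite := by
  obtain ⟨G, hG⟩ := hs {Z | Z ∈ 𝒵 ∧ Z.Infinite} (h.mono fun Z hZ => hZ.1).mk_lt fun Z hZ => hZ.2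
  exact ⟨G, fun Z hZ hZ2 => hG Z ⟨hZ, hZ2⟩⟩

theorem exists_generic (hs : SmallSplit) (𝒲 : Set (Set ℕ)) (h𝒲 : IsSmall 𝒲) (F₁ F₂ Y₁ Y₂ : Set ℕ)
    (hF : F₂ ⊆ F₁) (hY : Y₁ ⊆ Y₂) :
    ∃ F Y : Set ℕ, F₂ ⊆ F ∧ F ⊆ F₁ ∧ Y₁ ⊆ Y ∧ Y ⊆ Y₂ ∧
      (∀ W ∈ 𝒲, (W \ F).Finite → (W \ F₂).Finite) ∧
      (∀ W ∈ 𝒲, (F \ W).Finite → (F₁ \ W).Finite) ∧
      (∀ W ∈ 𝒲, (W \ Y).Finite → (W \ Y₁).Finite) ∧
      (∀ W ∈ 𝒲, (Y \ W).Finite → (Y₂ \ W).Finite) ∧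
      ((F \ Y).Finite → (F₁ \ Y₁).Finite) ∧
      ((Y \ F).Finite → (Y₂ \ F₂).Finite) := by
  have key : ∀ Z G : Set ℕ, (Z.Infinite → (Z ∩ G).Infinite ∧ (Z \ G).Infinite) → ∀ T : Set ℕ,
      T.Finite → (Z ∩ G ⊆ T ∨ Z \ G ⊆ T) → Z.Finite := by
    intro Z G h T hT h2
    by_contra hZ
    obtain ⟨h3, h4⟩ := h hZ
    rcases h2 with h2 | h2
    · exact h3 (hT.subset h2)
    · exact h4 (hT.subset h2)
  obtain ⟨G, hG⟩ := split_small hs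
    ((fun W => W \ F₂) '' 𝒲 ∪ (fun W => F₁ \ W) '' 𝒲 ∪ {F₁ \ Y₁, Y₂ \ F₂})
    (((h𝒲.image _).union (h𝒲.image _)).union (IsSmall.of_countable (by simp)))
  obtain ⟨H, hH⟩ := split_small hs
    ((fun W => W \ Y₁) '' 𝒲 ∪ (fun W => Y₂ \ W) '' 𝒲 ∪ {(F₁ \ Y₁) ∩ G, (Y₂ \ F₂) \ G})
    (((h𝒲.image _).union (h𝒲.image _)).union (IsSmall.of_countable (by simp)))
  refine ⟨F₂ ∪ (F₁ ∩ G), Y₁ ∪ (Y₂ ∩ H), subset_union_left,
    union_subset hF inter_subset_left, subset_union_left, union_subset hY inter_subset_left,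
    ?_, ?_, ?_, ?_, ?_, ?_⟩
  · intro W hW hfin
    refine key (W \ F₂) G (hG _ (Or.inl (Or.inl ⟨W, hW, rfl⟩))) _ hfin (Or.inr ?_)
    rintro x ⟨⟨h1, h2⟩, h3⟩
    refine ⟨h1, ?_⟩
    rintro (h | h)
    · exact h2 h
    · exact h3 h.2
  · intro W hW hfin
    refine key (F₁ \ W) G (hG _ (Or.inl (Or.inr ⟨W, hW, rfl⟩))) _ hfin (Or.inl ?_)
    rintro x ⟨⟨h1, h2⟩, h3⟩
    exact ⟨Or.inr ⟨h1, h3⟩, h2⟩
  · intro W hW hfin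
    refine key (W \ Y₁) H (hH _ (Or.inl (Or.inl ⟨W, hW, rfl⟩))) _ hfin (Or.inr ?_)
    rintro x ⟨⟨h1, h2⟩, h3⟩
    refine ⟨h1, ?_⟩
    rintro (h | h)
    · exact h2 h
    · exact h3 h.2
  · intro W hW hfin
    refine key (Y₂ \ W) H (hH _ (Or.inl (Or.inr ⟨W, hW, rfl⟩))) _ hfin (Or.inl ?_)
    rintro x ⟨⟨h1, h2⟩, h3⟩
    exact ⟨Or.inr ⟨h1, h3⟩, h2⟩
  · intro hfin
    have h1 : ((F₁ \ Y₁) ∩ G).Finite := by
      refine key ((F₁ \ Y₁) ∩ G) H (hH _ (Or.inr (Or.inl rfl))) _ hfin (Or.inr ?_)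
      rintro x ⟨⟨⟨h1, h2⟩, h3⟩, h4⟩
      refine ⟨Or.inr ⟨h1, h3⟩, ?_⟩
      rintro (h | h)
      · exact h2 h
      · exact h4 h.2
    exact key (F₁ \ Y₁) G (hG _ (Or.inr (Or.inl rfl))) _ h1 (Or.inl subset_rfl)
  · intro hfin
    have h1 : ((Y₂ \ F₂) \ G).Finite := by
      refine key ((Y₂ \ F₂) \ G) H (hH _ (Or.inr (Or.inr rfl))) _ hfin (Or.inl ?_)
      rintro x ⟨⟨⟨h1, h2⟩, h3⟩, h4⟩
      refine ⟨Or.inr ⟨h1, h4⟩, ?_⟩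
      rintro (h | h)
      · exact h2 h
      · exact h3 h.2
    exact key (Y₂ \ F₂) G (hG _ (Or.inr (Or.inr rfl))) _ h1 (Or.inr subset_rfl)

theorem exists_free {a b c d : Col} (hba : b ≤ a) (hcd : c ≤ d) (hD : ¬ (Low a ∧ a ≤ c))
    (hN : ¬ (¬ Low b ∧ d ≤ b)) : ∃ x y, b ≤ x ∧ x ≤ a ∧ c ≤ y ∧ y ≤ d ∧ Free x y := by
  by_cases ha : Low a
  · refine ⟨a, c, hba, le_rfl, le_rfl, hcd, Or.inl ⟨ha, ?_⟩⟩
    by_contra h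
    exact hD ⟨ha, not_lt.1 h⟩
  by_cases hb : Low b
  · by_cases hc : Low c
    · obtain ⟨x, hx, h1, h2⟩ := exists_low_gt hb hc
      exact ⟨x, c, h1, (lt_of_low_of_not_low hx ha).le, le_rfl, hcd, Or.inl ⟨hx, h2⟩⟩
    · obtain ⟨x, hx, h1, h2⟩ := exists_high_lt ha hc
      exact ⟨x, c, (lt_of_low_of_not_low hb hx).le, h1, le_rfl, hcd, Or.inr ⟨hx, h2⟩⟩
  · refine ⟨b, d, le_rfl, hba, hcd, le_rfl, Or.inr ⟨hb, ?_⟩⟩
    by_contra h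
    exact hN ⟨hb, not_lt.1 h⟩

theorem base_step (hs : SmallSplit) (s : Set Elt) (hv : Valid s) (hsm : IsSmall s)
    {F₁ F₂ Y₁ Y₂ : Set ℕ} {a b c d : Col} (hF : F₂ ⊆ F₁) (hY : Y₁ ⊆ Y₂)
    (ha : Sum.inl (F₁, a) ∈ s) (hb : Sum.inl (F₂, b) ∈ s) (hc : Sum.inl (Y₁, c) ∈ s)
    (hd : Sum.inl (Y₂, d) ∈ s) (hD : ¬ (Low a ∧ a ≤ c)) (hN : ¬ (¬ Low b ∧ d ≤ b))
    (h1 : ∀ F Y, Sum.inr (F, Y) ∈ s → ¬ ((F₁ \ F).Finite ∧ (Y \ Y₁).Finite))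
    (h2 : ∀ F Y, Sum.inr (F, Y) ∈ s → ¬ ((F \ F₂).Finite ∧ (Y₂ \ Y).Finite)) :
    ∃ s', s ⊆ s' ∧ Valid s' ∧ (s' \ s).Finite ∧
      ∃ F Y, Sum.inr (F, Y) ∈ s' ∧ F₂ ⊆ F ∧ F ⊆ F₁ ∧ Y₁ ⊆ Y ∧ Y ⊆ Y₂ := by
  classical
  have hfin0 : ∀ {A B : Set ℕ}, A ⊆ B → (A \ B).Finite := by
    intro A B h
    rw [sdiff_eq_empty.2 h]
    exact finite_empty
  have hba : b ≤ a := hv.mono _ _ _ _ hb ha (hfin0 hF)
  have hcd : c ≤ d := hv.mono _ _ _ _ hc hd (hfin0 hY)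
  obtain ⟨x, y, hbx, hxa, hcy, hyd, hxy⟩ := exists_free hba hcd hD hN
  obtain ⟨F, Y, hF2, hF1, hY1, hY2, g1, g2, g3, g4, g5, g6⟩ :=
    exists_generic hs {W | ∃ w, (Sum.inl (W, w) : Elt) ∈ s}
      ((hsm.image (fun e : Elt => Sum.elim Prod.fst Prod.fst e)).mono
        (by rintro W ⟨w, hw⟩; exact ⟨_, hw, rfl⟩)) F₁ F₂ Y₁ Y₂ hF hY
  refine ⟨insert (Sum.inr (F, Y)) (insert (Sum.inl (F, x)) (insert (Sum.inl (Y, y)) s)),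
    ((subset_insert _ _).trans (subset_insert _ _)).trans (subset_insert _ _), ⟨?_, ?_, ?_⟩, ?_,
    F, Y, mem_insert _ _, hF2, hF1, hY1, hY2⟩
  · intro A u A' u' h h' hfin
    have e : ∀ (A : Set ℕ) (u : Col), (Sum.inl (A, u) : Elt) ∈
        (insert (Sum.inr (F, Y)) (insert (Sum.inl (F, x)) (insert (Sum.inl (Y, y)) s)) :
          Set Elt) → (A = F ∧ u = x) ∨ (A = Y ∧ u = y) ∨ (Sum.inl (A, u) : Elt) ∈ s := by
      intro A u h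
      simpa using h
    replace h := e _ _ h
    replace h' := e _ _ h'
    rcases h with ⟨rfl, rfl⟩ | ⟨rfl, rfl⟩ | h
    · rcases h' with ⟨rfl, rfl⟩ | ⟨rfl, rfl⟩ | h'
      · exact le_rfl
      · exact hxa.trans ((hv.mono _ _ _ _ ha hc (g5 hfin)).trans hcy)
      · exact hxa.trans (hv.mono _ _ _ _ ha h' (g2 _ ⟨_, h'⟩ hfin))
    · rcases h' with ⟨rfl, rfl⟩ | ⟨rfl, rfl⟩ | h'
      · exact hyd.trans ((hv.mono _ _ _ _ hd hb (g6 hfin)).trans hbx)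
      · exact le_rfl
      · exact hyd.trans (hv.mono _ _ _ _ hd h' (g4 _ ⟨_, h'⟩ hfin))
    · rcases h' with ⟨rfl, rfl⟩ | ⟨rfl, rfl⟩ | h'
      · exact (hv.mono _ _ _ _ h hb (g1 _ ⟨_, h⟩ hfin)).trans hbx
      · exact (hv.mono _ _ _ _ h hc (g3 _ ⟨_, h⟩ hfin)).trans hcy
      · exact hv.mono _ _ _ _ h h' hfin
  · intro F' Y' h
    have h : (F' = F ∧ Y' = Y) ∨ (Sum.inr (F', Y') : Elt) ∈ s := by simpa using h
    rcases h with ⟨rfl, rfl⟩ | h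
    · exact ⟨x, y, by simp, by simp, hxy⟩
    · obtain ⟨u, v, hu, hv, huv⟩ := hv.free _ _ h
      exact ⟨u, v, Or.inr (Or.inr (Or.inr hu)), Or.inr (Or.inr (Or.inr hv)), huv⟩
  · intro A B A' B' h h' hfin hfin'
    replace h : (A = F ∧ B = Y) ∨ (Sum.inr (A, B) : Elt) ∈ s := by simpa using h
    replace h' : (A' = F ∧ B' = Y) ∨ (Sum.inr (A', B') : Elt) ∈ s := by simpa using h'
    rcases h with ⟨rfl, rfl⟩ | h
    · rcases h' with ⟨rfl, rfl⟩ | h'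
      · exact ⟨rfl, rfl⟩
      · obtain ⟨u, v, hu, hv', -⟩ := hv.free _ _ h'
        exact absurd ⟨g1 _ ⟨_, hu⟩ hfin, g4 _ ⟨_, hv'⟩ hfin'⟩ (h2 _ _ h')
    · rcases h' with ⟨rfl, rfl⟩ | h'
      · obtain ⟨u, v, hu, hv', -⟩ := hv.free _ _ h
        exact absurd ⟨g2 _ ⟨_, hu⟩ hfin, g3 _ ⟨_, hv'⟩ hfin'⟩ (h1 _ _ h)
      · exact hv.anti _ _ _ _ h h' hfin hfin'
  · refine (Set.toFinite ({Sum.inr (F, Y), Sum.inl (F, x), Sum.inl (Y, y)} : Set Elt)).subset ?_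
    rintro z ⟨hz, hz2⟩
    rcases hz with hz | hz | hz | hz
    · simp [hz]
    · simp [hz]
    · simp [hz]
    · exact absurd hz hz2

end Vale.Agent.P068
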