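import Mathlib
import Vale.Agent.P068.Step

open Set

namespace Vale.Agent.P068

def Ext (s s' : Set Elt) : Prop := s ⊆ s' ∧ Valid s' ∧ (s' \ s).Finite

theorem Ext.trans {s t u : Set Elt} (h1 : Ext s t) (h2 : Ext t u) : Ext s u := by
  refine ⟨h1.1.trans h2.1, h2.2.1, (h1.2.2.union h2.2.2).subset ?_⟩
  intro x hx
  by_cases hB : x ∈ t
  · exact Or.inl ⟨hB, hx.2⟩
  · exact Or.inr ⟨hx.1, hB⟩

theorem Ext.small {s t : Set Elt} (h1 : Ext s t) (h : IsSmall s) : IsSmall t := by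
  refine (h.union (IsSmall.of_countable h1.2.2.countable)).mono ?_
  intro x hx
  by_cases hB : x ∈ s
  · exact Or.inl hB
  · exact Or.inr ⟨hx, hB⟩

def Cross (s : Set Elt) (F₁ F₂ Y₁ Y₂ : Set ℕ) : Prop :=
  (∃ F Y, Sum.inr (F, Y) ∈ s ∧ (F₁ \ F).Finite ∧ (Y \ Y₁).Finite) ∨
  (∃ F Y, Sum.inr (F, Y) ∈ s ∧ (F \ F₂).Finite ∧ (Y₂ \ Y).Finite) ∨
  (∃ F Y, Sum.inr (F, Y) ∈ s ∧ F₂ ⊆ F ∧ F ⊆ F₁ ∧ Y₁ ⊆ Y ∧ Y ⊆ Y₂)

theorem cross_step (hs : SmallSplit) (s : Set Elt) (hv : Valid s) (hsm : IsSmall s)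
    (hbot : Sum.inl (∅, ⊥) ∈ s) (htop : Sum.inl (univ, ⊤) ∈ s)
    (F₁ F₂ Y₁ Y₂ : Set ℕ) (hF : F₂ ⊆ F₁) (hY : Y₁ ⊆ Y₂) :
    ∃ s', Ext s s' ∧ Cross s' F₁ F₂ Y₁ Y₂ := by
  classical
  obtain ⟨t1, h11, h12, h13, a, ha⟩ := tag_step s hv F₁
  obtain ⟨t2, h21, h22, h23, b, hb⟩ := tag_step t1 h12 F₂
  obtain ⟨t3, h31, h32, h33, c, hc⟩ := tag_step t2 h22 Y₁
  obtain ⟨t4, h41, h42, h43, d, hd⟩ := tag_step t3 h32 Y₂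
  have ext1 : Ext s t1 := ⟨h11, h12, h13⟩
  have ext2 : Ext t1 t2 := ⟨h21, h22, h23⟩
  have ext3 : Ext t2 t3 := ⟨h31, h32, h33⟩
  have ext4 : Ext t3 t4 := ⟨h41, h42, h43⟩
  have ext : Ext s t4 := ((ext1.trans ext2).trans ext3).trans ext4
  have sm := ext.small hsm
  replace ha := h41 (h31 (h21 ha))
  replace hb := h41 (h31 hb)
  replace hc := h41 hc
  replace hbot := ext.1 hbot
  replace htop := ext.1 htop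
  have hfin0 : ∀ {A B : Set ℕ}, A ⊆ B → (A \ B).Finite := by
    intro A B h
    rw [sdiff_eq_empty.2 h]
    exact finite_empty
  by_cases hD : Low a ∧ a ≤ c
  · by_cases h1 : ∃ F Y, (Sum.inr (F, Y) : Elt) ∈ t4 ∧ (univ \ F).Finite ∧ (Y \ ∅).Finite
    · obtain ⟨F, Y, h2, h3, h4⟩ := h1
      exact ⟨t4, ext, Or.inl ⟨F, Y, h2, h3.subset (fun x hx => ⟨trivial, hx.2⟩),
        h4.subset (fun x hx => ⟨hx.1, fun h => h⟩)⟩⟩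
    obtain ⟨s', h2, h3, h4, F, Y, h5, h6, h7, h8, h9⟩ := base_step hs t4 h42 sm
      (subset_univ F₁) (empty_subset Y₁) htop ha hbot hc
      (fun h => not_low_top h.1) (fun h => h.1 hD.1)
      (fun F Y hFY h => h1 ⟨F, Y, hFY, h.1, h.2⟩)
      (by
        rintro F Y hFY ⟨h2, h3⟩
        obtain ⟨x, y, hx, hy, hxy⟩ := h42.free F Y hFY
        have h4 : x ≤ a := h42.mono _ _ _ _ hx ha h2
        have h5 : c ≤ y := h42.mono _ _ _ _ hc hy h3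
        rcases hxy with ⟨-, h6⟩ | ⟨h6, -⟩
        · exact absurd (h4.trans (hD.2.trans h5)) (not_le.2 h6)
        · exact h6 (low_of_le h4 hD.1))
    exact ⟨s', ext.trans ⟨h2, h3, h4⟩, Or.inl ⟨F, Y, h5, hfin0 h6, hfin0 h9⟩⟩
  by_cases hN : ¬ Low b ∧ d ≤ b
  · by_cases h1 : ∃ F Y, (Sum.inr (F, Y) : Elt) ∈ t4 ∧ (F \ ∅).Finite ∧ (univ \ Y).Finite
    · obtain ⟨F, Y, h2, h3, h4⟩ := h1
      exact ⟨t4, ext, Or.inr (Or.inl ⟨F, Y, h2, h3.subset (fun x hx => ⟨hx.1, fun h => h⟩),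
        h4.subset (fun x hx => ⟨trivial, hx.2⟩)⟩)⟩
    obtain ⟨s', h2, h3, h4, F, Y, h5, h6, h7, h8, h9⟩ := base_step hs t4 h42 sm
      (empty_subset F₂) (subset_univ Y₂) hb hbot hd htop
      (fun h => hN.1 h.1) (fun h => h.1 low_bot)
      (by
        rintro F Y hFY ⟨h2, h3⟩
        obtain ⟨x, y, hx, hy, hxy⟩ := h42.free F Y hFY
        have h4 : b ≤ x := h42.mono _ _ _ _ hb hx h2
        have h5 : y ≤ d := h42.mono _ _ _ _ hy hd h3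
        rcases hxy with ⟨h6, -⟩ | ⟨-, h6⟩
        · exact hN.1 (low_of_le h4 h6)
        · exact absurd (h5.trans (hN.2.trans h4)) (not_le.2 h6))
      (fun F Y hFY h => h1 ⟨F, Y, hFY, h.1, h.2⟩)
    exact ⟨s', ext.trans ⟨h2, h3, h4⟩, Or.inr (Or.inl ⟨F, Y, h5, hfin0 h7, hfin0 h8⟩)⟩
  by_cases h1 : ∃ F Y, (Sum.inr (F, Y) : Elt) ∈ t4 ∧ (F₁ \ F).Finite ∧ (Y \ Y₁).Finite
  · exact ⟨t4, ext, Or.inl h1⟩
  by_cases h2 : ∃ F Y, (Sum.inr (F, Y) : Elt) ∈ t4 ∧ (F \ F₂).Finite ∧ (Y₂ \ Y).Finite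
  · exact ⟨t4, ext, Or.inr (Or.inl h2)⟩
  obtain ⟨s', h3, h4, h5, h6⟩ := base_step hs t4 h42 sm hF hY ha hb hc hd hD hN
    (fun F Y hFY h => h1 ⟨F, Y, hFY, h.1, h.2⟩) (fun F Y hFY h => h2 ⟨F, Y, hFY, h.1, h.2⟩)
  exact ⟨s', ext.trans ⟨h3, h4, h5⟩, Or.inr (Or.inr h6)⟩

def Done : (Set ℕ ⊕ ((Set ℕ × Set ℕ) × (Set ℕ × Set ℕ))) → Set Elt → Prop
  | Sum.inl A, s => ∃ x, Sum.inl (A, x) ∈ s
  | Sum.inr ((F₁, F₂), (Y₁, Y₂)), s => F₂ ⊆ F₁ → Y₁ ⊆ Y₂ → Cross s F₁ F₂ Y₁ Y₂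

theorem exists_final (hs : SmallSplit) :
    ∃ s : Set Elt, Valid s ∧ Sum.inl (∅, ⊥) ∈ s ∧ Sum.inl (univ, ⊤) ∈ s ∧
      (∀ A, ∃ x, Sum.inl (A, x) ∈ s) ∧
      (∀ F₁ F₂ Y₁ Y₂, F₂ ⊆ F₁ → Y₁ ⊆ Y₂ → Cross s F₁ F₂ Y₁ Y₂) := by
  have h0 : Valid ({Sum.inl (∅, ⊥), Sum.inl (univ, ⊤)} : Set Elt) := by
    refine ⟨?_, ?_, ?_⟩
    · intro A x A' x' h h' hfin
      have h : (A = ∅ ∧ x = ⊥) ∨ (A = univ ∧ x = ⊤) := by simpa using h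
      have h' : (A' = ∅ ∧ x' = ⊥) ∨ (A' = univ ∧ x' = ⊤) := by simpa using h'
      rcases h with ⟨rfl, rfl⟩ | ⟨rfl, rfl⟩
      · exact bot_le
      · rcases h' with ⟨rfl, rfl⟩ | ⟨rfl, rfl⟩
        · rw [sdiff_empty] at hfin
          exact absurd hfin infinite_univ
        · exact le_rfl
    · intro F Y h
      simp at h
    · intro F Y F' Y' h
      simp at h
  have hτ : Cardinal.mk (Set ℕ ⊕ ((Set ℕ × Set ℕ) × (Set ℕ × Set ℕ))) ≤ Cardinal.continuum := by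
    simp
  obtain ⟨s, h1, h2, h3⟩ := transfinite_build hτ Valid
    (fun c _ hdir hv => valid_sUnion c hdir hv)
    ({Sum.inl (∅, ⊥), Sum.inl (univ, ⊤)} : Set Elt) h0
    (IsSmall.of_countable (by simp)) Done
    (by
      intro t s s' hss h
      match t, h with
      | Sum.inl A, ⟨x, hx⟩ => exact ⟨x, hss hx⟩
      | Sum.inr ((F₁, F₂), (Y₁, Y₂)), h =>
        intro hF hY
        rcases h hF hY with ⟨F, Y, h⟩ | ⟨F, Y, h⟩ | ⟨F, Y, h⟩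
        · exact Or.inl ⟨F, Y, hss h.1, h.2⟩
        · exact Or.inr (Or.inl ⟨F, Y, hss h.1, h.2⟩)
        · exact Or.inr (Or.inr ⟨F, Y, hss h.1, h.2⟩))
    (by
      intro t s hv hsm hs0
      match t with
      | Sum.inl A => exact tag_step s hv A
      | Sum.inr ((F₁, F₂), (Y₁, Y₂)) =>
        by_cases hF : F₂ ⊆ F₁ ∧ Y₁ ⊆ Y₂
        · obtain ⟨s', h1, h2⟩ := cross_step hs s hv hsm (hs0 (by simp)) (hs0 (by simp)) F₁ F₂ Y₁ Y₂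
            hF.1 hF.2
          exact ⟨s', h1.1, h1.2.1, h1.2.2, fun _ _ => h2⟩
        · refine ⟨s, subset_rfl, hv, ?_, fun h1 h2 => absurd ⟨h1, h2⟩ hF⟩
          rw [sdiff_self]
          exact finite_empty)
  exact ⟨s, h2, h1 (by simp), h1 (by simp), fun A => h3 (Sum.inl A),
    fun F₁ F₂ Y₁ Y₂ => h3 (Sum.inr ((F₁, F₂), (Y₁, Y₂)))⟩

theorem exists_family (hs : SmallSplit) :
    ∃ (ρ : Set ℕ → Col) (𝓜 : Set (Set ℕ × Set ℕ)),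
      (∀ A B, (A \ B).Finite → ρ A ≤ ρ B) ∧ ρ ∅ = ⊥ ∧ ρ univ = ⊤ ∧
      (∀ F Y, (F, Y) ∈ 𝓜 → Free (ρ F) (ρ Y)) ∧
      (∀ F Y F' Y', (F, Y) ∈ 𝓜 → (F', Y') ∈ 𝓜 → (F' \ F).Finite → (Y \ Y').Finite →
        F = F' ∧ Y = Y') ∧
      (∀ F₁ F₂ Y₁ Y₂ : Set ℕ, F₂ ⊆ F₁ → Y₁ ⊆ Y₂ →
        (∃ F Y, (F, Y) ∈ 𝓜 ∧ (F₁ \ F).Finite ∧ (Y \ Y₁).Finite) ∨
        (∃ F Y, (F, Y) ∈ 𝓜 ∧ (F \ F₂).Finite ∧ (Y₂ \ Y).Finite) ∨
        (∃ F Y, (F, Y) ∈ 𝓜 ∧ F₂ ⊆ F ∧ F ⊆ F₁ ∧ Y₁ ⊆ Y ∧ Y ⊆ Y₂)) := by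
  obtain ⟨s, hv, hbot, htop, htag, hcross⟩ := exists_final hs
  choose ρ hρ using htag
  have hfun : ∀ A x, (Sum.inl (A, x) : Elt) ∈ s → ρ A = x := by
    intro A x hx
    have h3 : (A \ A).Finite := by
      rw [sdiff_self]
      exact finite_empty
    exact le_antisymm (hv.mono _ _ _ _ (hρ A) hx h3) (hv.mono _ _ _ _ hx (hρ A) h3)
  refine ⟨ρ, {p | Sum.inr p ∈ s}, ?_, hfun _ _ hbot, hfun _ _ htop, ?_, ?_, ?_⟩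
  · intro A B h
    exact hv.mono _ _ _ _ (hρ A) (hρ B) h
  · intro F Y h
    obtain ⟨x, y, hx, hy, hxy⟩ := hv.free F Y h
    rw [hfun _ _ hx, hfun _ _ hy]
    exact hxy
  · intro F Y F' Y' h h'
    exact hv.anti _ _ _ _ h h'
  · exact hcross

end Vale.Agent.P068
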