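import Mathlib
import Vale.Agent.P068.Chain

open Set

namespace Vale.Agent.P068

def src (i : ℤ) : ℤ := if 1 ≤ i then i - 1 else i

def tgt (i : ℤ) : ℤ := if 1 ≤ i then i else i - 1

def Typ (i : ℤ) : Prop := (1 ≤ i ∧ ¬ Even i) ∨ (i ≤ 0 ∧ Even i)

def phi (i : ℤ) : ℕ ⊕ ℕ → ℤ × ℕ := Sum.elim (fun n => (src i, n)) (fun n => (tgt i, n))

theorem phi_fst (i : ℤ) (z : ℕ ⊕ ℕ) : (phi i z).1 = i ∨ (phi i z).1 = i - 1 := by
  rcases z with n | n
  · simp only [phi, Sum.elim_inl, src]
    split_ifs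
    · exact Or.inr rfl
    · exact Or.inl rfl
  · simp only [phi, Sum.elim_inr, tgt]
    split_ifs
    · exact Or.inl rfl
    · exact Or.inr rfl

theorem src_ne_tgt (i : ℤ) : src i ≠ tgt i := by
  unfold src tgt
  split_ifs <;> omega

theorem phi_injective (i : ℤ) : Function.Injective (phi i) := by
  rintro (n | n) (m | m) h
  · simp only [phi, Sum.elim_inl, Prod.mk.injEq, true_and] at h
    rw [h]
  · simp only [phi, Sum.elim_inl, Sum.elim_inr, Prod.mk.injEq] at h
    exact absurd h.1 (src_ne_tgt i)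
  · simp only [phi, Sum.elim_inl, Sum.elim_inr, Prod.mk.injEq] at h
    exact absurd h.1.symm (src_ne_tgt i)
  · simp only [phi, Sum.elim_inr, Prod.mk.injEq, true_and] at h
    rw [h]

theorem exists_phi (i k : ℤ) (h : k = i ∨ k = i - 1) (n : ℕ) : ∃ z, phi i z = (k, n) := by
  have h2 : src i = k ∨ tgt i = k := by
    unfold src tgt
    split_ifs <;> omega
  rcases h2 with h2 | h2
  · exact ⟨Sum.inl n, by simp [phi, h2]⟩
  · exact ⟨Sum.inr n, by simp [phi, h2]⟩

theorem phi_bijective (p : ℤ → Prop) (hp : ∀ i, p (i + 1) ↔ ¬ p i) :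
    Function.Bijective (fun x : (_ : {i // p i}) × (ℕ ⊕ ℕ) => phi x.1.1 x.2) := by
  constructor
  · rintro ⟨⟨i, hi⟩, z⟩ ⟨⟨j, hj⟩, w⟩ h
    simp only at h
    have h1 := phi_fst i z
    have h2 := phi_fst j w
    rw [h] at h1
    have hij : i = j := by
      have h3 := hp (i - 1)
      have h4 := hp (j - 1)
      rw [sub_add_cancel] at h3 h4
      rcases h1 with h1 | h1 <;> rcases h2 with h2 | h2
      · omega
      · have h5 : i = j - 1 := by omega
        rw [h5] at hi
        exact absurd hi (h4.1 hj)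
      · have h5 : j = i - 1 := by omega
        rw [h5] at hj
        exact absurd hj (h3.1 hi)
      · omega
    subst hij
    have := phi_injective i h
    subst this
    rfl
  · rintro ⟨k, n⟩
    by_cases hk : p k
    · obtain ⟨z, hz⟩ := exists_phi k k (Or.inl rfl) n
      exact ⟨⟨⟨k, hk⟩, z⟩, hz⟩
    · obtain ⟨z, hz⟩ := exists_phi (k + 1) k (Or.inr (by ring)) n
      exact ⟨⟨⟨k + 1, (hp k).2 hk⟩, z⟩, hz⟩

theorem exists_counterexample {L : Type*} [LinearOrder L] [BoundedOrder L] (Low : L → Prop)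
    (ρ : Set ℕ → L) (U : Matroid (ℕ ⊕ ℕ)) (h0 : Sys Low ρ U) :
    ∃ M N : Matroid (ℤ × ℕ), M.E = Set.univ ∧ N.E = Set.univ ∧ IsCountableSumOfUniform M ∧
      IsCountableSumOfUniform N ∧ ¬ SatisfiesIntersection M N := by
  classical
  let C : ℤ → Matroid (ℕ ⊕ ℕ) := fun i => if Typ i then U.dual else U
  have hC : ∀ i, C i = U ∨ C i = U.dual := by
    intro i
    by_cases h : Typ i
    · exact Or.inr (if_pos h)
    · exact Or.inl (if_neg h)
  have hCE : ∀ i, (C i).E = univ := by
    intro i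
    rcases hC i with h | h
    · rw [h, h0.hUE]
    · rw [h, Matroid.dual_ground, h0.hUE]
  have hCsw : ∀ i I x, (C i).Indep I → ¬ (C i).IsBase I → (C i).Indep (insert x I) := by
    intro i
    rcases hC i with h | h
    · rw [h]
      exact insert_indep_of_swap U h0.hswap
    · rw [h]
      exact insert_indep_of_swap _ (dual_swap U h0.hUE h0.hswap)
  have hloc1 : ∀ i I, (C i).Indep I → Sum.inl ⁻¹' I ≠ univ := by
    intro i I hI h
    rcases hC i with h1 | h1
    · rw [h1] at hI
      exact h0.loc1 (Or.inl hI) h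
    · rw [h1] at hI
      exact h0.loc1 (Or.inr hI) h
  have hloc2 : ∀ i I, (C i).IsBase I → Sum.inl ⁻¹' I ≠ ∅ := by
    intro i I hI h
    rcases hC i with h1 | h1
    · rw [h1] at hI
      exact h0.loc2 (Or.inl hI) h
    · rw [h1] at hI
      exact h0.loc2 (Or.inr hI) h
  obtain ⟨M, hME, hM, hMcl, hMu⟩ := exists_glue (fun i : {i : ℤ // Even i} => C i.1)
    (fun i => hCE i.1) (fun i => phi i.1)
    (phi_bijective (fun i => Even i) (fun i => Int.even_add_one)) (fun i => hCsw i.1)
  obtain ⟨N, hNE, hN, hNcl, hNu⟩ := exists_glue (fun i : {i : ℤ // ¬ Even i} => C i.1)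
    (fun i => hCE i.1) (fun i => phi i.1)
    (phi_bijective (fun i => ¬ Even i) (fun i => not_congr Int.even_add_one))
    (fun i => hCsw i.1)
  refine ⟨M, N, hME, hNE, hMu, hNu, ?_⟩
  rintro ⟨JM, JN, hdisj, hJM, hJN, hcl⟩
  have hind : ∀ i, (C i).Indep (phi i ⁻¹' (JM ∪ JN)) := by
    intro i
    by_cases hi : Even i
    · exact (hM _).1 hJM ⟨i, hi⟩
    · exact (hN _).1 hJN ⟨i, hi⟩
  let c : ℤ → Prop := fun i =>
    (Even i ∧ (C i).IsBase (phi i ⁻¹' JM)) ∨ (¬ Even i ∧ (C i).IsBase (phi i ⁻¹' JN))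
  have hcb : ∀ i, c i → (C i).IsBase (phi i ⁻¹' (JM ∪ JN)) := by
    rintro i (⟨-, h⟩ | ⟨-, h⟩)
    · rwa [← h.eq_of_subset_indep (hind i) (preimage_mono subset_union_left)]
    · rwa [← h.eq_of_subset_indep (hind i) (preimage_mono subset_union_right)]
  have hcM : ∀ i, c i → Even i → ∀ z, phi i z ∉ JN := by
    rintro i (⟨-, h⟩ | ⟨h, -⟩) he z hz
    · have h1 := h.eq_of_subset_indep (hind i) (preimage_mono subset_union_left)
      have h2 : z ∈ phi i ⁻¹' JM := by
        rw [h1]
        exact Or.inr hz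
      exact disjoint_left.1 hdisj h2 hz
    · exact h he
  have hcN : ∀ i, c i → ¬ Even i → ∀ z, phi i z ∉ JM := by
    rintro i (⟨h, -⟩ | ⟨-, h⟩) he z hz
    · exact he h
    · have h1 := h.eq_of_subset_indep (hind i) (preimage_mono subset_union_right)
      have h2 : z ∈ phi i ⁻¹' JN := by
        rw [h1]
        exact Or.inl hz
      exact disjoint_left.1 hdisj hz h2
  have hnM : ∀ i, ¬ c i → Even i → ∀ z, phi i z ∈ M.closure JM → phi i z ∈ JM := by
    intro i hc he z hz
    refine hMcl JM (hJM.subset subset_union_left) ⟨i, he⟩ (fun h => hc (Or.inl ⟨he, h⟩)) z hz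
  have hnN : ∀ i, ¬ c i → ¬ Even i → ∀ z, phi i z ∈ N.closure JN → phi i z ∈ JN := by
    intro i hc he z hz
    refine hNcl JN (hJN.subset subset_union_right) ⟨i, he⟩ (fun h => hc (Or.inr ⟨he, h⟩)) z hz
  have hsrc : ∀ k : ℤ, ∃ i, (i = k ∨ i = k + 1) ∧ src i = k := by
    intro k
    by_cases hk : 0 ≤ k
    · refine ⟨k + 1, Or.inr rfl, ?_⟩
      unfold src
      split_ifs <;> omega
    · refine ⟨k, Or.inl rfl, ?_⟩
      unfold src
      split_ifs <;> omega
  have hpre : ∀ i k, src i = k → ∀ J : Set (ℤ × ℕ),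
      (Sum.inl ⁻¹' (phi i ⁻¹' J) : Set ℕ) = {n | (k, n) ∈ J} := by
    intro i k h J
    ext n
    simp [phi, h]
  have hA : ∀ k, ¬ (¬ c k ∧ ¬ c (k + 1)) := by
    rintro k ⟨h1, h2⟩
    obtain ⟨i, -, hi⟩ := hsrc k
    refine hloc1 i _ (hind i) ?_
    rw [hpre i k hi]
    ext n
    simp only [mem_ofPred_eq, mem_univ, iff_true]
    obtain ⟨z, hz⟩ := exists_phi k k (Or.inl rfl) n
    obtain ⟨w, hw⟩ := exists_phi (k + 1) k (Or.inr (by ring)) n
    have h3 : (k, n) ∈ M.closure JM ∪ N.closure JN := by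
      rw [hcl, hME]
      trivial
    by_cases he : Even k
    · have he' : ¬ Even (k + 1) := by
        rw [Int.even_add_one]
        simpa using he
      rcases h3 with h3 | h3
      · rw [← hz] at h3 ⊢
        exact Or.inl (hnM k h1 he z h3)
      · rw [← hw] at h3 ⊢
        exact Or.inr (hnN (k + 1) h2 he' w h3)
    · have he' : Even (k + 1) := by
        rw [Int.even_add_one]
        exact he
      rcases h3 with h3 | h3
      · rw [← hw] at h3 ⊢
        exact Or.inl (hnM (k + 1) h2 he' w h3)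
      · rw [← hz] at h3 ⊢
        exact Or.inr (hnN k h1 he z h3)
  have hB : ∀ k, ¬ (c k ∧ c (k + 1)) := by
    rintro k ⟨h1, h2⟩
    obtain ⟨i, hi2, hi⟩ := hsrc k
    have hci : c i := by
      rcases hi2 with rfl | rfl
      · exact h1
      · exact h2
    refine hloc2 i _ (hcb i hci) ?_
    rw [hpre i k hi]
    ext n
    simp only [mem_ofPred_eq, mem_empty_iff_false, iff_false]
    obtain ⟨z, hz⟩ := exists_phi k k (Or.inl rfl) n
    obtain ⟨w, hw⟩ := exists_phi (k + 1) k (Or.inr (by ring)) n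
    by_cases he : Even k
    · have he' : ¬ Even (k + 1) := by
        rw [Int.even_add_one]
        simpa using he
      rintro (h3 | h3)
      · rw [← hw] at h3
        exact hcN (k + 1) h2 he' w h3
      · rw [← hz] at h3
        exact hcM k h1 he z h3
    · have he' : Even (k + 1) := by
        rw [Int.even_add_one]
        exact he
      rintro (h3 | h3)
      · rw [← hz] at h3
        exact hcN k h1 he z h3
      · rw [← hw] at h3
        exact hcM (k + 1) h2 he' w h3
  have halt : ∀ k, c (k + 1) ↔ ¬ c k := by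
    intro k
    constructor
    · intro h1 h2
      exact hB k ⟨h2, h1⟩
    · intro h1
      by_contra h2
      exact hA k ⟨h1, h2⟩
  have hd : ∀ k, ((c (k + 1) ↔ Even (k + 1)) ↔ (c k ↔ Even k)) := by
    intro k
    rw [halt k, Int.even_add_one]
    tauto
  have hall : (∀ k, (c k ↔ Even k)) ∨ (∀ k, ¬ (c k ↔ Even k)) := by
    have key : ∀ k : ℤ, (c k ↔ Even k) ↔ (c 0 ↔ Even (0 : ℤ)) := by
      intro k
      induction k using Int.induction_on with
      | zero => exact Iff.rfl
      | succ n ih => exact (hd _).trans ih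
      | pred n ih =>
        have := hd (-(n : ℤ) - 1)
        rw [sub_add_cancel] at this
        exact this.symm.trans ih
    by_cases h : (c 0 ↔ Even (0 : ℤ))
    · exact Or.inl fun k => (key k).2 h
    · exact Or.inr fun k h2 => h ((key k).1 h2)
  let JR : ℕ → Set ℕ := fun j => {n | ((j : ℤ), n) ∈ JM ∪ JN}
  let JL : ℕ → Set ℕ := fun j => {n | (-(j : ℤ), n) ∈ JM ∪ JN}
  have h00 : JR 0 = JL 0 := by
    simp [JR, JL]
  have hRl : ∀ j : ℕ, Sum.inl ⁻¹' (phi ((j : ℤ) + 1) ⁻¹' (JM ∪ JN)) = JR j := by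
    intro j
    refine hpre _ _ ?_ _
    unfold src
    split_ifs <;> omega
  have hRr : ∀ j : ℕ, Sum.inr ⁻¹' (phi ((j : ℤ) + 1) ⁻¹' (JM ∪ JN)) = JR (j + 1) := by
    intro j
    have h1 : tgt ((j : ℤ) + 1) = ((j + 1 : ℕ) : ℤ) := by
      unfold tgt
      push_cast
      split_ifs <;> omega
    ext n
    simp [phi, h1, JR]
  have hLl : ∀ j : ℕ, Sum.inl ⁻¹' (phi (-(j : ℤ)) ⁻¹' (JM ∪ JN)) = JL j := by
    intro j
    refine hpre _ _ ?_ _
    unfold src
    split_ifs <;> omega
  have hLr : ∀ j : ℕ, Sum.inr ⁻¹' (phi (-(j : ℤ)) ⁻¹' (JM ∪ JN)) = JL (j + 1) := by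
    intro j
    have h1 : tgt (-(j : ℤ)) = -((j + 1 : ℕ) : ℤ) := by
      unfold tgt
      push_cast
      split_ifs <;> omega
    ext n
    simp only [phi, h1, JL, mem_preimage, mem_ofPred_eq, Sum.elim_inr]
  have hCR : ∀ j : ℕ, (Even j → C ((j : ℤ) + 1) = U.dual) ∧ (¬ Even j → C ((j : ℤ) + 1) = U) := by
    intro j
    constructor
    · intro h
      refine if_pos (Or.inl ⟨by omega, ?_⟩)
      rw [Int.even_add_one, not_not]
      exact_mod_cast h
    · intro h
      refine if_neg ?_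
      rintro (⟨-, h2⟩ | ⟨h2, -⟩)
      · apply h2
        rw [Int.even_add_one]
        exact_mod_cast h
      · omega
  have hCL : ∀ j : ℕ, (Even j → C (-(j : ℤ)) = U.dual) ∧ (¬ Even j → C (-(j : ℤ)) = U) := by
    intro j
    constructor
    · intro h
      refine if_pos (Or.inr ⟨by omega, ?_⟩)
      rw [even_neg]
      exact_mod_cast h
    · intro h
      refine if_neg ?_
      rintro (⟨h2, -⟩ | ⟨-, h2⟩)
      · omega
      · apply h
        rw [even_neg] at h2
        exact_mod_cast h2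
  have hevR : ∀ j : ℕ, Even ((j : ℤ) + 1) ↔ ¬ Even j := by
    intro j
    rw [Int.even_add_one, Int.even_coe_nat]
  have hevL : ∀ j : ℕ, Even (-(j : ℤ)) ↔ Even j := by
    intro j
    rw [even_neg, Int.even_coe_nat]
  rcases hall with hall | hall
  · have h1 : Low (ρ (JR 0)) := by
      refine h0.half_high JR (fun j => phi ((j : ℤ) + 1) ⁻¹' (JM ∪ JN)) hRl hRr ?_ ?_
      · intro j hj
        rw [← (hCR j).1 hj]
        exact hind _
      · intro j hj
        rw [← (hCR j).2 hj]
        exact hcb _ ((hall _).2 ((hevR j).2 hj))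
    have h2 : ¬ Low (ρ (JL 0)) := by
      refine h0.half_low JL (fun j => phi (-(j : ℤ)) ⁻¹' (JM ∪ JN)) hLl hLr ?_ ?_
      · intro j hj
        rw [← (hCL j).1 hj]
        exact hcb _ ((hall _).2 ((hevL j).2 hj))
      · intro j hj
        rw [← (hCL j).2 hj]
        exact hind _
    rw [← h00] at h2
    exact h2 h1
  · have hall' : ∀ k, ¬ Even k → c k := by
      intro k hk
      by_contra h
      exact hall k ⟨fun h' => absurd h' h, fun h' => absurd h' hk⟩
    have h1 : ¬ Low (ρ (JR 0)) := by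
      refine h0.half_low JR (fun j => phi ((j : ℤ) + 1) ⁻¹' (JM ∪ JN)) hRl hRr ?_ ?_
      · intro j hj
        rw [← (hCR j).1 hj]
        refine hcb _ (hall' _ ?_)
        rw [hevR, not_not]
        exact hj
      · intro j hj
        rw [← (hCR j).2 hj]
        exact hind _
    have h2 : Low (ρ (JL 0)) := by
      refine h0.half_high JL (fun j => phi (-(j : ℤ)) ⁻¹' (JM ∪ JN)) hLl hLr ?_ ?_
      · intro j hj
        rw [← (hCL j).1 hj]
        exact hind _
      · intro j hj
        rw [← (hCL j).2 hj]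
        refine hcb _ (hall' _ ?_)
        rw [hevL]
        exact hj
    rw [← h00] at h2
    exact h1 h2

end Vale.Agent.P068
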