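import Mathlib
import Vale.Agent.P068.Defs

open Set Matroid

namespace Vale.Agent.P068

theorem intersection_of_packingCovering {α : Type*} (M N : Matroid α) (hE : M.E = N.E)
    (h : HasPackingCovering M.E (fun b : Bool => if b then M else N✶)) :
    SatisfiesIntersection M N := by
  obtain ⟨P, C, S, I, hPC, hPCE, hS, hI, hSd, hSp, hIi, hIC⟩ := h
  have hP : P ⊆ M.E := hPCE ▸ subset_union_left
  have hC : C ⊆ M.E := hPCE ▸ subset_union_right
  have hPN : P ⊆ N.E := hE ▸ hP
  have hCN : C ⊆ N.E := hE ▸ hC
  have hPeq : P = M.E \ C := by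
    rw [← hPCE, union_sdiff_right]
    exact hPC.sdiff_eq_left.symm
  have hCeq : C = M.E \ P := by
    rw [← hPCE, union_sdiff_left]
    exact hPC.sdiff_eq_right.symm
  have hst := hSp true
  have hsf := hSp false
  have hit := hIi true
  have hif := hIi false
  simp only [if_true, Bool.false_eq_true, if_false] at hst hsf hit hif
  have hspM : (M ↾ P).Spanning (S true) := by
    rw [spanning_iff_closure_eq (by simpa using hS true)]
    simpa using hst
  obtain ⟨JM, hJM, hJMS⟩ := hspM.exists_isBase_subset
  have hJMb : M.IsBasis JM P := (isBase_restrict_iff hP).mp hJM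
  have hspN : (N✶ ↾ P).Spanning (S false) := by
    rw [spanning_iff_closure_eq (by simpa using hS false)]
    simpa using hsf
  have hco : (N✶ ↾ P).Coindep (P \ S false) := by
    have := hspN.compl_coindep
    simpa using this
  have hNC : (N✶ ↾ P)✶ = N ／ C := by
    have h1 : P = N✶.E \ C := by rw [dual_ground, ← hE, hPeq]
    rw [← dual_delete_dual, ← restrict_compl, ← h1]
  have hMP : (M✶ ↾ C)✶ = M ／ P := by
    have h1 : C = M✶.E \ P := by rw [dual_ground, hCeq]
    rw [← dual_delete_dual, ← restrict_compl, ← h1]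
  have hcoi : (N ／ C).Indep (P \ S false) := by
    rw [← hNC]
    exact hco
  have hJMP : JM ⊆ P \ S false := by
    intro x hx
    refine ⟨hJMb.subset hx, fun hx' => ?_⟩
    exact (hSd true false (by simp)).le_bot ⟨hJMS hx, hx'⟩
  have hN1 : (N ／ C).Indep JM := hcoi.subset hJMP
  rw [hMP] at hit
  rw [dual_dual] at hif
  have hif' : (N ↾ C).Coindep (I false) := hif
  have hspC : (N ↾ C).Spanning (C \ I false) := by
    have := hif'.compl_spanning
    simpa using this
  obtain ⟨JN, hJN, hJNS⟩ := hspC.exists_isBase_subset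
  have hJNb : N.IsBasis JN C := (isBase_restrict_iff hCN).mp hJN
  have hJNI : JN ⊆ I true := by
    intro x hx
    have hx1 := hJNS hx
    have hx2 : x ∈ ⋃ i, I i := hIC ▸ hx1.1
    rw [mem_iUnion] at hx2
    obtain ⟨b, hb⟩ := hx2
    cases b with
    | true => exact hb
    | false => exact absurd hb hx1.2
  have hM1 : (M ／ P).Indep JN := hit.subset hJNI
  have hM2 := hJMb.contract_indep_iff.mp hM1
  have hN2 := hJNb.contract_indep_iff.mp hN1
  refine ⟨JM, JN, ?_, ?_, hN2.1, ?_⟩
  · exact hPC.mono hJMb.subset hJNb.subset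
  · rw [union_comm]
    exact hM2.1
  · refine subset_antisymm (union_subset (M.closure_subset_ground _)
      (hE ▸ N.closure_subset_ground _)) ?_
    rw [← hPCE]
    exact union_subset_union hJMb.subset_closure hJNb.subset_closure

end Vale.Agent.P068
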