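import Mathlib

open Set

namespace Vale.Agent.P068

variable {E' : Type*}

structure Comm (S B : Set E') : Prop where
  left : (S \ B).Finite
  right : (B \ S).Finite

noncomputable def exc (S B : Set E') : ℤ := ((S \ B).ncard : ℤ) - ((B \ S).ncard : ℤ)

lemma Comm.symm {S B : Set E'} (h : Comm S B) : Comm B S := ⟨h.right, h.left⟩

lemma Comm.trans {S B T : Set E'} (h : Comm S B) (h' : Comm B T) : Comm S T := by
  refine ⟨(h.left.union h'.left).subset ?_, (h.right.union h'.right).subset ?_⟩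
  · intro x hx
    by_cases hB : x ∈ B
    · exact Or.inr ⟨hB, hx.2⟩
    · exact Or.inl ⟨hx.1, hB⟩
  · intro x hx
    by_cases hB : x ∈ B
    · exact Or.inl ⟨hB, hx.2⟩
    · exact Or.inr ⟨hx.1, hB⟩

lemma exc_symm (S B : Set E') : exc B S = - exc S B := by
  unfold exc
  ring

lemma exc_eq_inter {S B D : Set E'} (hD : D.Finite) (h1 : S \ B ⊆ D) (h2 : B \ S ⊆ D) :
    exc S B = ((S ∩ D).ncard : ℤ) - ((B ∩ D).ncard : ℤ) := by
  have e1 : (S ∩ D).ncard = (S \ B).ncard + (S ∩ B ∩ D).ncard := by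
    rw [← ncard_union_eq ?_ (hD.subset h1) (hD.subset inter_subset_right)]
    · congr 1
      ext x
      simp only [mem_inter_iff, mem_union, mem_sdiff]
      constructor
      · rintro ⟨hS, hD'⟩
        by_cases hB : x ∈ B
        · exact Or.inr ⟨⟨hS, hB⟩, hD'⟩
        · exact Or.inl ⟨hS, hB⟩
      · rintro (⟨hS, hB⟩ | ⟨⟨hS, hB⟩, hD'⟩)
        · exact ⟨hS, h1 ⟨hS, hB⟩⟩
        · exact ⟨hS, hD'⟩
    · rw [disjoint_left]
      rintro x ⟨_, hB⟩ ⟨⟨_, hB'⟩, _⟩
      exact hB hB'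
  have e2 : (B ∩ D).ncard = (B \ S).ncard + (S ∩ B ∩ D).ncard := by
    rw [← ncard_union_eq ?_ (hD.subset h2) (hD.subset inter_subset_right)]
    · congr 1
      ext x
      simp only [mem_inter_iff, mem_union, mem_sdiff]
      constructor
      · rintro ⟨hB, hD'⟩
        by_cases hS : x ∈ S
        · exact Or.inr ⟨⟨hS, hB⟩, hD'⟩
        · exact Or.inl ⟨hB, hS⟩
      · rintro (⟨hB, hS⟩ | ⟨⟨hS, hB⟩, hD'⟩)
        · exact ⟨hB, h2 ⟨hB, hS⟩⟩
        · exact ⟨hB, hD'⟩
    · rw [disjoint_left]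
      rintro x ⟨_, hS⟩ ⟨⟨hS', _⟩, _⟩
      exact hS hS'
  unfold exc
  rw [e1, e2]
  push_cast
  ring

lemma exc_add {S B T : Set E'} (h : Comm S B) (h' : Comm B T) :
    exc S T = exc S B + exc B T := by
  have hst := h.trans h'
  set D := (S \ B) ∪ (B \ S) ∪ (B \ T) ∪ (T \ B) ∪ (S \ T) ∪ (T \ S) with hD
  have hDf : D.Finite :=
    ((((h.left.union h.right).union h'.left).union h'.right).union hst.left).union hst.right
  rw [exc_eq_inter (S := S) (B := T) hDf, exc_eq_inter (S := S) (B := B) hDf,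
    exc_eq_inter (S := B) (B := T) hDf]
  · ring
  all_goals
    rw [hD]
    intro x hx
    simp only [mem_union]
    tauto

lemma exc_of_subset {S T : Set E'} (h : S ⊆ T) : exc T S = ((T \ S).ncard : ℤ) := by
  unfold exc
  rw [sdiff_eq_empty.mpr h]
  simp

lemma exc_self (S : Set E') : exc S S = 0 := by
  unfold exc
  simp

def UBase (𝓜 : Set (Set E')) (S : Set E') : Prop := ∃ B ∈ 𝓜, Comm S B ∧ exc S B = 0

def UIndep (𝓜 : Set (Set E')) (I : Set E') : Prop := ∃ S, UBase 𝓜 S ∧ I ⊆ S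

lemma ubase_self {𝓜 : Set (Set E')} {B : Set E'} (hB : B ∈ 𝓜) : UBase 𝓜 B :=
  ⟨B, hB, ⟨by simp, by simp⟩, exc_self B⟩

lemma uindep_of {𝓜 : Set (Set E')} {B I : Set E'} (hB : B ∈ 𝓜) (h1 : (I \ B).Finite)
    (h2 : (B \ I).Finite → exc I B ≤ 0) : UIndep 𝓜 I := by
  obtain ⟨D, hDsub, hDcard, hDfin⟩ : ∃ D ⊆ B \ I, D.ncard = (I \ B).ncard ∧ D.Finite := by
    by_cases hfin : (B \ I).Finite
    · have h3 := h2 hfin
      unfold exc at h3
      obtain ⟨D, hD, hDc⟩ := exists_subset_card_eq (s := B \ I) (n := (I \ B).ncard)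
        (by omega)
      exact ⟨D, hD, hDc, hfin.subset hD⟩
    · obtain ⟨D, hD, hDf, hDc⟩ := Set.Infinite.exists_subset_ncard_eq hfin (I \ B).ncard
      exact ⟨D, hD, hDc, hDf⟩
  refine ⟨I ∪ (B \ D), ⟨B, hB, ?_, ?_⟩, subset_union_left⟩
  · constructor
    · refine h1.subset ?_
      rintro x ⟨hx | hx, hxB⟩
      · exact ⟨hx, hxB⟩
      · exact absurd hx.1 hxB
    · refine hDfin.subset ?_
      rintro x ⟨hxB, hx⟩
      by_contra hxD
      exact hx (Or.inr ⟨hxB, hxD⟩)
  · unfold exc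
    have e1 : (I ∪ (B \ D)) \ B = I \ B := by
      ext x
      simp only [mem_sdiff, mem_union]
      tauto
    have e2 : B \ (I ∪ (B \ D)) = D := by
      ext x
      simp only [mem_sdiff, mem_union]
      constructor
      · tauto
      · intro hx
        have := hDsub hx
        exact ⟨this.1, by rintro (h | h); exacts [this.2 h, h.2 hx]⟩
    rw [e1, e2, hDcard]
    ring

lemma ubase_swap {𝓜 : Set (Set E')} {S : Set E'} {x y : E'} (h : UBase 𝓜 S) (hx : x ∈ S)
    (hy : y ∉ S) : UBase 𝓜 (insert y (S \ {x})) := by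
  obtain ⟨B, hB, hc, he⟩ := h
  have hxy : y ≠ x := fun h => hy (h ▸ hx)
  have e1 : insert y (S \ {x}) \ S = {y} := by
    ext z
    simp only [mem_sdiff, mem_insert_iff, mem_singleton_iff]
    constructor
    · rintro ⟨h | h, h'⟩
      · exact h
      · exact absurd h.1 h'
    · rintro rfl
      exact ⟨Or.inl rfl, hy⟩
  have e2 : S \ insert y (S \ {x}) = {x} := by
    ext z
    simp only [mem_sdiff, mem_insert_iff, mem_singleton_iff]
    constructor
    · rintro ⟨h, h'⟩
      by_contra hz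
      exact h' (Or.inr ⟨h, hz⟩)
    · rintro rfl
      refine ⟨hx, ?_⟩
      rintro (h | h)
      · exact hxy h.symm
      · exact h.2 rfl
  have hcs : Comm (insert y (S \ {x})) S := ⟨by rw [e1]; exact finite_singleton _,
    by rw [e2]; exact finite_singleton _⟩
  refine ⟨B, hB, hcs.trans hc, ?_⟩
  rw [exc_add hcs hc, he]
  unfold exc
  rw [e1, e2]
  simp

lemma ubase_eq_of_subset {𝓜 : Set (Set E')}
    (hanti : ∀ B ∈ 𝓜, ∀ B' ∈ 𝓜, (B \ B').Finite → B = B') {S T : Set E'}
    (hS : UBase 𝓜 S) (hT : UBase 𝓜 T) (h : S ⊆ T) : S = T := by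
  obtain ⟨B, hB, hc, he⟩ := hS
  obtain ⟨B', hB', hc', he'⟩ := hT
  have hfin : (B \ B').Finite := by
    refine (hc.right.union hc'.left).subset ?_
    intro x hx
    by_cases hxS : x ∈ S
    · exact Or.inr ⟨h hxS, hx.2⟩
    · exact Or.inl ⟨hx.1, hxS⟩
  have hBB := hanti B hB B' hB' hfin
  subst hBB
  have h1 : exc T S = 0 := by
    rw [exc_add hc' hc.symm, he', exc_symm S B, he]
    ring
  rw [exc_of_subset h] at h1
  have hTS : (T \ S).Finite := (hc'.trans hc.symm).left
  have h2 : (T \ S).ncard = 0 := by exact_mod_cast h1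
  rw [ncard_eq_zero hTS] at h2
  exact subset_antisymm h (sdiff_eq_empty.mp h2)

lemma maximal_of_ubase {𝓜 : Set (Set E')}
    (hanti : ∀ B ∈ 𝓜, ∀ B' ∈ 𝓜, (B \ B').Finite → B = B') {S X : Set E'}
    (hS : UBase 𝓜 S) (hSX : S ⊆ X) : Maximal (fun K => UIndep 𝓜 K ∧ K ⊆ X) S := by
  refine ⟨⟨⟨S, hS, Subset.rfl⟩, hSX⟩, ?_⟩
  rintro K ⟨⟨T, hT, hKT⟩, _⟩ hSK
  have := ubase_eq_of_subset hanti hS hT (hSK.trans hKT)
  rw [this]
  exact hKT

lemma maximal_self {𝓜 : Set (Set E')} {X : Set E'} (hX : UIndep 𝓜 X) :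
    Maximal (fun K => UIndep 𝓜 K ∧ K ⊆ X) X :=
  ⟨⟨hX, Subset.rfl⟩, fun _ hK _ => hK.2⟩

lemma umaximality {𝓜 : Set (Set E')}
    (hanti : ∀ B ∈ 𝓜, ∀ B' ∈ 𝓜, (B \ B').Finite → B = B')
    (hcross : ∀ I X : Set E', I ⊆ X → (∃ B ∈ 𝓜, (B \ I).Finite) ∨ (∃ B ∈ 𝓜, (X \ B).Finite) ∨
      ∃ B ∈ 𝓜, I ⊆ B ∧ B ⊆ X) (X : Set E') :
    Matroid.ExistsMaximalSubsetProperty (UIndep 𝓜) X := by
  intro I hI hIX
  obtain ⟨S₀, ⟨B₀, hB₀, hc₀, he₀⟩, hIS⟩ := hI
  rcases hcross I X hIX with ⟨B, hB, hfin⟩ | ⟨B, hB, hfin⟩ | ⟨B, hB, hIB, hBX⟩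
  · have hBB : B = B₀ := by
      refine hanti B hB B₀ hB₀ ((hfin.union hc₀.left).subset ?_)
      intro x hx
      by_cases hxI : x ∈ I
      · exact Or.inr ⟨hIS hxI, hx.2⟩
      · exact Or.inl ⟨hx.1, hxI⟩
    subst hBB
    have hcIS : Comm I S₀ := by
      constructor
      · rw [sdiff_eq_empty.mpr hIS]
        exact finite_empty
      · refine (hc₀.left.union hfin).subset ?_
        intro x hx
        by_cases hxB : x ∈ B
        · exact Or.inr ⟨hxB, hx.2⟩
        · exact Or.inl ⟨hx.1, hxB⟩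
    have heIS : exc I S₀ = - ((S₀ \ I).ncard : ℤ) := by
      rw [exc_symm S₀ I, exc_of_subset hIS]
    by_cases hcase : (X \ I).Finite ∧ (X \ I).ncard < (S₀ \ I).ncard
    · refine ⟨X, hIX, maximal_self ?_⟩
      have hcXI : Comm X I := ⟨hcase.1, by rw [sdiff_eq_empty.mpr hIX]; exact finite_empty⟩
      have hcXB := hcXI.trans (hcIS.trans hc₀)
      refine uindep_of hB hcXB.left fun _ => ?_
      rw [exc_add hcXI (hcIS.trans hc₀), exc_add hcIS hc₀, he₀, heIS, exc_of_subset hIX]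
      have := hcase.2
      omega
    · obtain ⟨F, hFsub, hFfin, hFcard⟩ : ∃ F ⊆ X \ I, F.Finite ∧ F.ncard = (S₀ \ I).ncard := by
        by_cases hXf : (X \ I).Finite
        · have hle : (S₀ \ I).ncard ≤ (X \ I).ncard := by
            by_contra hcon
            push Not at hcon
            exact hcase ⟨hXf, hcon⟩
          obtain ⟨F, hF, hFc⟩ := exists_subset_card_eq hle
          exact ⟨F, hF, hXf.subset hF, hFc⟩
        · exact Set.Infinite.exists_subset_ncard_eq hXf _
      refine ⟨I ∪ F, subset_union_left, maximal_of_ubase hanti ?_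
        (union_subset hIX (hFsub.trans sdiff_subset))⟩
      have e1 : (I ∪ F) \ I = F := by
        rw [union_sdiff_left]
        refine sdiff_eq_left.mpr ?_
        rw [disjoint_left]
        intro x hx hxI
        exact (hFsub hx).2 hxI
      have hcJI : Comm (I ∪ F) I := ⟨by rw [e1]; exact hFfin,
        by rw [sdiff_eq_empty.mpr subset_union_left]; exact finite_empty⟩
      refine ⟨B, hB, hcJI.trans (hcIS.trans hc₀), ?_⟩
      rw [exc_add hcJI (hcIS.trans hc₀), exc_add hcIS hc₀, he₀, heIS,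
        exc_of_subset subset_union_left, e1, hFcard]
      ring
  · by_cases hBX : (B \ X).Finite
    · have hcXB : Comm X B := ⟨hfin, hBX⟩
      by_cases he : exc X B ≤ 0
      · exact ⟨X, hIX, maximal_self (uindep_of hB hfin fun _ => he)⟩
      · push Not at he
        obtain ⟨n, hn⟩ := Int.eq_ofNat_of_zero_le he.le
        obtain ⟨F, hFsub, hFfin, hFcard⟩ : ∃ F ⊆ X \ I, F.Finite ∧ F.ncard = n := by
          by_cases hXf : (X \ I).Finite
          · have hle : n ≤ (X \ I).ncard := by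
              by_contra hcon
              push Not at hcon
              have hcIX : Comm I X := ⟨by rw [sdiff_eq_empty.mpr hIX]; exact finite_empty, hXf⟩
              have hBB : B = B₀ := by
                refine hanti B hB B₀ hB₀ (((hBX.union hXf).union hc₀.left).subset ?_)
                intro x hx
                by_cases hxX : x ∈ X
                · by_cases hxI : x ∈ I
                  · exact Or.inr ⟨hIS hxI, hx.2⟩
                  · exact Or.inl (Or.inr ⟨hxX, hxI⟩)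
                · exact Or.inl (Or.inl ⟨hx.1, hxX⟩)
              subst hBB
              have hcIB := hcIX.trans hcXB
              have hcIS : Comm I S₀ := hcIB.trans hc₀.symm
              have h1 : exc I B = exc I X + exc X B := exc_add hcIX hcXB
              have h2 : exc I B = exc I S₀ + exc S₀ B := exc_add hcIS hc₀
              have h3 : exc I X = - ((X \ I).ncard : ℤ) := by
                rw [exc_symm X I, exc_of_subset hIX]
              have h4 : exc I S₀ = - ((S₀ \ I).ncard : ℤ) := by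
                rw [exc_symm S₀ I, exc_of_subset hIS]
              omega
            obtain ⟨F, hF, hFc⟩ := exists_subset_card_eq hle
            exact ⟨F, hF, hXf.subset hF, hFc⟩
          · exact Set.Infinite.exists_subset_ncard_eq hXf _
        have e1 : X \ (X \ F) = F := by
          rw [sdiff_sdiff_cancel_left (hFsub.trans sdiff_subset)]
        have hcJX : Comm (X \ F) X := ⟨by rw [sdiff_eq_empty.mpr sdiff_subset]; exact finite_empty,
          by rw [e1]; exact hFfin⟩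
        refine ⟨X \ F, ?_, maximal_of_ubase hanti ?_ sdiff_subset⟩
        · intro x hx
          exact ⟨hIX hx, fun hxF => (hFsub hxF).2 hx⟩
        · refine ⟨B, hB, hcJX.trans hcXB, ?_⟩
          rw [exc_add hcJX hcXB, exc_symm X (X \ F), exc_of_subset sdiff_subset, e1, hFcard, hn]
          ring
    · exact ⟨X, hIX, maximal_self (uindep_of hB hfin fun h => absurd h hBX)⟩
  · exact ⟨B, hIB, maximal_of_ubase hanti (ubase_self hB) hBX⟩

theorem exists_uniform {E' : Type*} (𝓜 : Set (Set E'))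
    (hanti : ∀ B ∈ 𝓜, ∀ B' ∈ 𝓜, (B \ B').Finite → B = B')
    (hcross : ∀ I X : Set E', I ⊆ X → (∃ B ∈ 𝓜, (B \ I).Finite) ∨ (∃ B ∈ 𝓜, (X \ B).Finite) ∨
      ∃ B ∈ 𝓜, I ⊆ B ∧ B ⊆ X) :
    ∃ U : Matroid E', U.E = Set.univ ∧
      (∀ S, U.IsBase S → ∃ B ∈ 𝓜, (S \ B).Finite ∧ (B \ S).Finite) ∧
      (∀ S x y, U.IsBase S → x ∈ S → y ∉ S → U.IsBase (insert y (S \ {x}))) := by
  refine ⟨{ E := Set.univ
            IsBase := UBase 𝓜
            Indep := UIndep 𝓜
            indep_iff' := fun I => Iff.rfl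
            exists_isBase := ?_
            isBase_exchange := ?_
            maximality := fun X _ => umaximality hanti hcross X
            subset_ground := fun B _ => subset_univ B }, rfl, ?_, ?_⟩
  · rcases hcross ∅ Set.univ (empty_subset _) with ⟨B, hB, _⟩ | ⟨B, hB, _⟩ | ⟨B, hB, _⟩
    · exact ⟨B, ubase_self hB⟩
    · exact ⟨B, ubase_self hB⟩
    · exact ⟨B, ubase_self hB⟩
  · intro S T hS hT a ha
    by_cases hne : (T \ S).Nonempty
    · obtain ⟨b, hb⟩ := hne
      exact ⟨b, hb, ubase_swap hS ha.1 hb.2⟩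
    · rw [not_nonempty_iff_eq_empty, sdiff_eq_empty] at hne
      have := ubase_eq_of_subset hanti hT hS hne
      rw [this] at ha
      exact absurd ha.1 ha.2
  · rintro S ⟨B, hB, hc, _⟩
    exact ⟨B, hB, hc.left, hc.right⟩
  · intro S x y hS hx hy
    exact ubase_swap hS hx hy

end Vale.Agent.P068
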