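import Mathlib
import Vale.Agent.P068.Family
import Vale.Agent.P068.Main1
import Vale.Agent.P068.Uniform
import Vale.Agent.P068.PackCover
import Vale.Agent.P068.CH

open Set Matroid

namespace Vale.Agent.P068

theorem fin_preimage {S : Set (ℕ ⊕ ℕ)} (h : S.Finite) :
    (Sum.inl ⁻¹' S : Set ℕ).Finite ∧ (Sum.inr ⁻¹' S : Set ℕ).Finite :=
  ⟨h.preimage Sum.inl_injective.injOn, h.preimage Sum.inr_injective.injOn⟩

theorem fin_of_preimage {S : Set (ℕ ⊕ ℕ)} (h1 : (Sum.inl ⁻¹' S : Set ℕ).Finite)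
    (h2 : (Sum.inr ⁻¹' S : Set ℕ).Finite) : S.Finite := by
  refine ((h1.image Sum.inl).union (h2.image Sum.inr)).subset ?_
  rintro (n | n) hn
  · exact Or.inl ⟨n, hn, rfl⟩
  · exact Or.inr ⟨n, hn, rfl⟩

theorem exists_sys (hs : SmallSplit) :
    ∃ (ρ : Set ℕ → Col) (U : Matroid (ℕ ⊕ ℕ)), Sys Low ρ U := by
  obtain ⟨ρ, 𝓜, hmono, hbot, htop, hfree, hanti, hcross⟩ := exists_family hs
  let 𝓑 : Set (Set (ℕ ⊕ ℕ)) := {B | ((Sum.inl ⁻¹' B)ᶜ, Sum.inr ⁻¹' B) ∈ 𝓜}
  have hmk : ∀ F Y : Set ℕ, (F, Y) ∈ 𝓜 → ∃ B ∈ 𝓑, Sum.inl ⁻¹' B = Fᶜ ∧ Sum.inr ⁻¹' B = Y := by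
    intro F Y h
    have h1 : (Sum.inl ⁻¹' (Sum.inl '' Fᶜ ∪ Sum.inr '' Y) : Set ℕ) = Fᶜ := by
      ext n
      simp
    have h2 : (Sum.inr ⁻¹' (Sum.inl '' Fᶜ ∪ Sum.inr '' Y) : Set ℕ) = Y := by
      ext n
      simp
    refine ⟨Sum.inl '' Fᶜ ∪ Sum.inr '' Y, ?_, h1, h2⟩
    show ((Sum.inl ⁻¹' _)ᶜ, Sum.inr ⁻¹' _) ∈ 𝓜
    rw [h1, h2, compl_compl]
    exact h
  obtain ⟨U, hUE, hU1, hU2⟩ := exists_uniform 𝓑
    (by
      intro B hB B' hB' hfin
      have h1 := fin_preimage hfin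
      obtain ⟨h2, h3⟩ := hanti _ _ _ _ hB hB'
        (h1.1.subset (fun x hx => ⟨by simpa using hx.2, by simpa using hx.1⟩)) h1.2
      rw [compl_inj_iff] at h2
      ext (n | n)
      · exact Set.ext_iff.1 h2 n
      · exact Set.ext_iff.1 h3 n)
    (by
      intro I X hIX
      rcases hcross (Sum.inl ⁻¹' I)ᶜ (Sum.inl ⁻¹' X)ᶜ (Sum.inr ⁻¹' I) (Sum.inr ⁻¹' X)
        (compl_subset_compl.2 (preimage_mono hIX)) (preimage_mono hIX) with
        ⟨F, Y, h, h1, h2⟩ | ⟨F, Y, h, h1, h2⟩ | ⟨F, Y, h, h1, h2, h3, h4⟩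
      · obtain ⟨B, hB, hB1, hB2⟩ := hmk F Y h
        refine Or.inl ⟨B, hB, fin_of_preimage ?_ ?_⟩
        · rw [preimage_sdiff, hB1]
          exact h1.subset fun x hx => ⟨hx.2, hx.1⟩
        · rw [preimage_sdiff, hB2]
          exact h2
      · obtain ⟨B, hB, hB1, hB2⟩ := hmk F Y h
        refine Or.inr (Or.inl ⟨B, hB, fin_of_preimage ?_ ?_⟩)
        · rw [preimage_sdiff, hB1]
          exact h1.subset fun x hx => ⟨by simpa using hx.2, fun h => h hx.1⟩
        · rw [preimage_sdiff, hB2]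
          exact h2
      · obtain ⟨B, hB, hB1, hB2⟩ := hmk F Y h
        refine Or.inr (Or.inr ⟨B, hB, ?_, ?_⟩)
        · rintro (n | n) hn
          · have : n ∈ Fᶜ := fun h => h2 h hn
            rw [← hB1] at this
            exact this
          · have : n ∈ Y := h3 hn
            rw [← hB2] at this
            exact this
        · rintro (n | n) hn
          · by_contra hn2
            have h5 : n ∈ (Sum.inl ⁻¹' B : Set ℕ) := hn
            rw [hB1] at h5
            exact h5 (h1 hn2)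
          · have h5 : n ∈ (Sum.inr ⁻¹' B : Set ℕ) := hn
            rw [hB2] at h5
            exact h4 h5)
  refine ⟨ρ, U, ?_⟩
  refine ⟨fun x y => low_of_le, low_bot, not_low_top, no_descent, no_ascent, ?_, hbot, htop, hUE,
    hU2, ?_⟩
  · intro A B h
    apply hmono
    rw [sdiff_eq_empty.2 h]
    exact finite_empty
  · intro S hS
    obtain ⟨B, hB, hfin1, hfin2⟩ := hU1 S hS
    have f1 := fin_preimage hfin1
    have f2 := fin_preimage hfin2
    have e1 : ρ (Sum.inl ⁻¹' S)ᶜ = ρ (Sum.inl ⁻¹' B)ᶜ := by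
      apply le_antisymm
      · apply hmono
        exact f2.1.subset fun x hx => ⟨by simpa using hx.2, hx.1⟩
      · apply hmono
        exact f1.1.subset fun x hx => ⟨by simpa using hx.2, hx.1⟩
    have e2 : ρ (Sum.inr ⁻¹' S) = ρ (Sum.inr ⁻¹' B) := by
      apply le_antisymm
      · exact hmono _ _ f1.2
      · exact hmono _ _ f2.2
    rw [e1, e2]
    rcases hfree _ _ hB with ⟨h1, h2⟩ | ⟨h1, h2⟩
    · exact ⟨fun _ => h2, fun h => absurd h1 h⟩
    · exact ⟨fun h => absurd h h1, fun _ => h2⟩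

theorem counterexample (hs : SmallSplit) :
    ∃ M N : Matroid (ℤ × ℕ), M.E = univ ∧ N.E = univ ∧ IsCountableSumOfUniform M ∧
      IsCountableSumOfUniform N ∧ ¬ SatisfiesIntersection M N := by
  obtain ⟨ρ, U, h0⟩ := exists_sys hs
  exact exists_counterexample Low ρ U h0

theorem main (hs : SmallSplit) :
    ¬ IntersectionConjecture ∧ ¬ PackingCoveringConjecture ∧
      ∃ M N : Matroid (ℤ × ℕ), M.E = univ ∧ N.E = univ ∧ IsCountableSumOfUniform M ∧
        IsCountableSumOfUniform N ∧ ¬ SatisfiesIntersection M N ∧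
        ¬ HasPackingCovering univ (fun b : Bool => if b then M else N✶) := by
  obtain ⟨M, N, hM, hN, hMu, hNu, h⟩ := counterexample hs
  have h2 : ¬ HasPackingCovering univ (fun b : Bool => if b then M else N✶) := by
    intro h2
    apply h
    apply intersection_of_packingCovering M N (by rw [hM, hN])
    rw [hM]
    exact h2
  refine ⟨?_, ?_, M, N, hM, hN, hMu, hNu, h, h2⟩
  · intro h3
    exact h (h3 _ M N (by rw [hM, hN]))
  · intro h3
    refine h2 (h3 _ _ univ _ ?_)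
    intro b
    cases b
    · simpa using hN
    · simpa using hM

theorem main_ch (h : Cardinal.continuum.{0} = Cardinal.aleph 1) :
    ¬ IntersectionConjecture ∧ ¬ PackingCoveringConjecture :=
  ⟨(main (smallSplit_of_ch h)).1, (main (smallSplit_of_ch h)).2.1⟩

end Vale.Agent.P068
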